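import Vale.Agent.P309.Setting

/-!
# P309 : common definitions for the memory-sample lower bound
-/

namespace P309

open MeasureTheory ProbabilityTheory
open scoped ENNReal RealInnerProductSpace

section General

variable {V : Type*} [NormedAddCommGroup V] [InnerProductSpace ℝ V] [FiniteDimensional ℝ V]
  [MeasurableSpace V] [BorelSpace V]

/-- distance from `x` to the subspace `W` -/
noncomputable def dst (W : Submodule ℝ V) (x : V) : ℝ := ‖Wᗮ.starProjection x‖

variable (V) in
/-- the law of `n` independent standard Gaussian rows -/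
noncomputable def rows (n : ℕ) : Measure (Fin n → V) := Measure.pi fun _ => stdGaussian V

/-- the labels of the rows `X` for the signal `s` -/
noncomputable def lab {n : ℕ} (X : Fin n → V) (s : V) : Fin n → ℝ := fun i => ⟪X i, s⟫

/-- the standard Gaussian measure on label vectors -/
noncomputable def glab (n : ℕ) : Measure (Fin n → ℝ) := Measure.pi fun _ => gaussianReal 0 1

/-- rows with operator norm at most `8 √d` -/
def goodX (n : ℕ) (V : Type*) [NormedAddCommGroup V] [InnerProductSpace ℝ V] :
    Set (Fin n → V) :=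
  {X | ∀ D : V, ∑ i, ⟪X i, D⟫ ^ 2 ≤ 64 * (Module.finrank ℝ V : ℝ) * ‖D‖ ^ 2}

end General

/-- code books: `N` vectors on each of `L` levels -/
abbrev Code (L N d : ℕ) := Fin L × Fin N → Eu d

/-- paths -/
abbrev Path (L N : ℕ) := Fin L → Fin N

/-- Gaussian vector conditioned on norm at most `2 √d` -/
noncomputable def tg (d : ℕ) : Measure (Eu d) :=
  ProbabilityTheory.cond (stdGaussian (Eu d)) (Metric.closedBall 0 (2 * √d))

/-- law of the code book -/
noncomputable def codeM (L N d : ℕ) : Measure (Code L N d) := Measure.pi fun _ => tg d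

/-- the translate belonging to the path `z` -/
noncomputable def shift {L N d : ℕ} (G : Code L N d) (z : Path L N) : Eu d :=
  ∑ l : Fin L, ((1 / 4 : ℝ) ^ (l.val + 1) / √d) • G (l, z l)

/-- the annulus -/
def ann (d : ℕ) : Set (Eu d) := {t | 1 ≤ ‖t‖ ∧ ‖t‖ ≤ 2}

/-- the signal of a point -/
noncomputable def sg {d : ℕ} (t : Eu d) : Eu d := ‖t‖⁻¹ • t

/-- paths whose first difference to `z'` is at level `l` -/
def Lev {L N : ℕ} (z' : Path L N) (l : Fin L) : Finset (Path L N) :=
  Finset.univ.filter fun z => (∀ i, i < l → z i = z' i) ∧ z l ≠ z' l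

/-- the normalised signal difference at level `l` -/
noncomputable def Dz {L N d : ℕ} (z' : Path L N) (l : Fin L) (t' : Eu d) (G : Code L N d)
    (z : Path L N) : Eu d :=
  ((1 / 4 : ℝ) ^ (l.val + 1))⁻¹ • (sg (t' + (shift G z - shift G z')) - sg t')

/-- the entropy functional `∑ α_z log (A / α_z)`, `A = ∑ α_z` -/
noncomputable def ent {Z : Type*} [Fintype Z] (α : Z → ℝ) : ℝ :=
  ∑ z, Real.negMulLog (α z) - Real.negMulLog (∑ z, α z)

/-- the potential `Φ(a)` -/
noncomputable def Pot (L N : ℕ) {d : ℕ} (a : Eu d → ℝ) : ℝ :=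
  ((N : ℝ) ^ L)⁻¹ * ∫ p : Code L N d × Eu d, ent (fun z : Path L N => a (p.2 + shift p.1 z))
    ∂((codeM L N d).prod volume)

/-- probability, given signal direction `sg t`, of the message with acceptance set `H` -/
noncomputable def msg {n d : ℕ} (H : Set ((Fin n → Eu d) × (Fin n → ℝ))) (t : Eu d) : ℝ :=
  (rows (Eu d) n).real {X | (X, lab X (sg t)) ∈ H}

/-- reference probability at level `l` -/
noncomputable def refP {n d : ℕ} (l : ℕ) (t : Eu d) (H : Set ((Fin n → Eu d) × (Fin n → ℝ))) :
    ℝ :=
  ((rows (Eu d) n).prod (glab n)).real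
    {p | (p.1, lab p.1 (sg t) + ((1 / 4 : ℝ) ^ (l + 1)) • p.2) ∈ H}

/-- `n` steps of a deterministic learner starting at index `i` in state `u` -/
def run {S V : Type*} (st : ℕ → S → V → ℝ → S) : (n : ℕ) → (i : ℕ) → (Fin n → V) → (Fin n → ℝ) →
    S → S
  | 0, _, _, _, u => u
  | n + 1, i, X, y, u => run st n (i + 1) (Fin.tail X) (Fin.tail y) (st i u (X 0) (y 0))

end P309
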