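import Vale.Agent.P309.Defs

/-!
# P309 : finite entropy algebra
-/

namespace P309

open Real

section Ent

variable {Z : Type*} [Fintype Z]

theorem ent_eq (α : Z → ℝ) :
    ent α = ∑ z, α z * (Real.log (∑ z, α z) - Real.log (α z)) := by
  unfold ent Real.negMulLog
  simp only [mul_sub, Finset.sum_sub_distrib, ← Finset.sum_mul, neg_mul, Finset.sum_neg_distrib]
  ring

theorem le_tot {α : Z → ℝ} (hα : ∀ z, 0 ≤ α z) (z : Z) : α z ≤ ∑ z, α z :=
  Finset.single_le_sum (fun z _ => hα z) (Finset.mem_univ z)

theorem ent_nonneg {α : Z → ℝ} (hα : ∀ z, 0 ≤ α z) : 0 ≤ ent α := by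
  rw [ent_eq]
  refine Finset.sum_nonneg fun z _ => ?_
  rcases (hα z).eq_or_lt with h | h
  · rw [← h, zero_mul]
  · exact mul_nonneg (hα z) (sub_nonneg.mpr (Real.log_le_log h (le_tot hα z)))

/-- tangent line inequality for the logarithm -/
theorem log_le_tangent {x l : ℝ} (hx : 0 < x) (hl : 0 < l) :
    Real.log x ≤ Real.log l + x / l - 1 := by
  have := Real.log_le_sub_one_of_pos (div_pos hx hl)
  rw [Real.log_div hx.ne' hl.ne'] at this
  linarith

theorem ent_le {α : Z → ℝ} (hα : ∀ z, 0 ≤ α z) :
    ent α ≤ (∑ z, α z) * Real.log ((Finset.univ.filter fun z => α z ≠ 0).card) := by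
  classical
  rw [ent_eq]
  set A := ∑ z, α z with hA
  set s := Finset.univ.filter fun z => α z ≠ 0 with hs
  rcases (Finset.sum_nonneg fun z (_ : z ∈ Finset.univ) => hα z).eq_or_lt with h | h
  · have h0 : ∀ z, α z = 0 := fun z => le_antisymm (by rw [h]; exact le_tot hα z) (hα z)
    have h1 : A = 0 := by rw [hA, ← h]
    rw [h1, zero_mul]
    exact le_of_eq (Finset.sum_eq_zero fun z _ => by rw [h0 z, zero_mul])
  · have hA0 : 0 < A := h
    have hsne : s.Nonempty := by
      by_contra hne
      rw [Finset.not_nonempty_iff_eq_empty, Finset.filter_eq_empty_iff] at hne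
      have : A = 0 := Finset.sum_eq_zero fun z hz => by
        have := hne hz
        push Not at this
        exact this
      linarith
    have hcard : (0 : ℝ) < s.card := by exact_mod_cast Finset.card_pos.mpr hsne
    have h1 : ∑ z, α z * (Real.log A - Real.log (α z)) =
        ∑ z ∈ s, α z * (Real.log A - Real.log (α z)) := by
      symm
      apply Finset.sum_subset (Finset.subset_univ s)
      intro z _ hz
      have : α z = 0 := by
        by_contra hne
        exact hz (Finset.mem_filter.mpr ⟨Finset.mem_univ z, hne⟩)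
      rw [this, zero_mul]
    have h2 : ∑ z ∈ s, α z = A := by
      apply Finset.sum_subset (Finset.subset_univ s)
      intro z _ hz
      by_contra hne
      exact hz (Finset.mem_filter.mpr ⟨Finset.mem_univ z, hne⟩)
    rw [h1]
    calc ∑ z ∈ s, α z * (Real.log A - Real.log (α z))
        ≤ ∑ z ∈ s, (α z * (Real.log s.card - 1) + A / s.card) := by
          refine Finset.sum_le_sum fun z hz => ?_
          have hz0 : 0 < α z := lt_of_le_of_ne (hα z) (Ne.symm (Finset.mem_filter.mp hz).2)
          have h3 := log_le_tangent (div_pos hA0 hz0) hcard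
          rw [Real.log_div hA0.ne' hz0.ne'] at h3
          have h4 := mul_le_mul_of_nonneg_left h3 hz0.le
          have h5 : α z * (Real.log s.card + A / α z / s.card - 1) =
              α z * (Real.log s.card - 1) + A / s.card := by
            field_simp
            ring
          linarith
      _ = A * Real.log s.card := by
          rw [Finset.sum_add_distrib, ← Finset.sum_mul, h2, Finset.sum_const, nsmul_eq_mul]
          field_simp
          ring

theorem ent_sum {U : Type*} [Fintype U] {α : U → Z → ℝ} (hα : ∀ u z, 0 ≤ α u z) :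
    ∑ u, ent (α u) ≤ ent (fun z => ∑ u, α u z) := by
  simp only [ent_eq]
  set A : U → ℝ := fun u => ∑ z, α u z with hA
  set B : Z → ℝ := fun z => ∑ u, α u z with hB
  set T := ∑ z, ∑ u, α u z with hT
  have hTA : ∑ u, A u = T := Finset.sum_comm
  have hA0 : ∀ u, 0 ≤ A u := fun u => Finset.sum_nonneg fun z _ => hα u z
  have hB0 : ∀ z, 0 ≤ B z := fun z => Finset.sum_nonneg fun u _ => hα u z
  have hT0 : 0 ≤ T := Finset.sum_nonneg fun z _ => hB0 z
  have hterm : ∀ u z, α u z * (Real.log (A u) - Real.log (α u z)) ≤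
      α u z * (Real.log T - Real.log (B z)) + (A u * B z / T - α u z) := by
    intro u z
    rcases (hα u z).eq_or_lt with h | h
    · rw [← h, zero_mul, zero_mul, zero_add, sub_zero]
      exact div_nonneg (mul_nonneg (hA0 u) (hB0 z)) hT0
    · have hAu : 0 < A u := h.trans_le (le_tot (hα u) z)
      have hBz : 0 < B z := h.trans_le (le_tot (fun u => hα u z) u)
      have hTp : 0 < T := hBz.trans_le (le_tot hB0 z)
      have h1 := Real.log_le_sub_one_of_pos (show 0 < A u * B z / (α u z * T) by positivity)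
      rw [Real.log_div (by positivity) (by positivity), Real.log_mul hAu.ne' hBz.ne',
        Real.log_mul h.ne' hTp.ne'] at h1
      have h2 := mul_le_mul_of_nonneg_left h1 h.le
      have h3 : α u z * (A u * B z / (α u z * T) - 1) = A u * B z / T - α u z := by
        field_simp
      rw [h3] at h2
      linarith
  calc ∑ u, ∑ z, α u z * (Real.log (A u) - Real.log (α u z))
      ≤ ∑ u, ∑ z, (α u z * (Real.log T - Real.log (B z)) + (A u * B z / T - α u z)) :=
        Finset.sum_le_sum fun u _ => Finset.sum_le_sum fun z _ => hterm u z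
    _ = ∑ z, B z * (Real.log T - Real.log (B z)) + (T * T / T - T) := by
        simp only [Finset.sum_add_distrib, Finset.sum_sub_distrib]
        congr 1
        · rw [Finset.sum_comm]
          exact Finset.sum_congr rfl fun z _ => by rw [← Finset.sum_mul]
        · congr 1
          · simp only [← Finset.sum_div, ← Finset.mul_sum, ← Finset.sum_mul]
            rw [hTA]
    _ ≤ ∑ z, B z * (Real.log T - Real.log (B z)) := by
        rcases hT0.eq_or_lt with h | h
        · rw [← h]; simp
        · rw [mul_div_assoc, div_self h.ne', mul_one, sub_self, add_zero]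

theorem ent_add_le {α β : Z → ℝ} (hα : ∀ z, 0 ≤ α z) (hβ : ∀ z, 0 ≤ β z) :
    ent (fun z => α z + β z) ≤ ent α + ent β + (∑ z, (α z + β z)) * Real.log 2 := by
  simp only [ent_eq]
  rw [Finset.sum_add_distrib]
  set A := ∑ z, α z with hA
  set B := ∑ z, β z with hB
  have hA0 : 0 ≤ A := Finset.sum_nonneg fun z _ => hα z
  have hB0 : 0 ≤ B := Finset.sum_nonneg fun z _ => hβ z
  have key : ∀ {α β : Z → ℝ} (_ : ∀ z, 0 ≤ α z) (_ : ∀ z, 0 ≤ β z) {A B : ℝ} (_ : A = ∑ z, α z)
      (_ : 0 ≤ B) (z : Z), α z * (Real.log (A + B) - Real.log (α z + β z)) ≤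
      α z * (Real.log A - Real.log (α z)) +
        α z * (Real.log 2 + (A + B) / (2 * A) - 1) := by
    intro α β hα hβ A B hA hB z
    rcases (hα z).eq_or_lt with h | h
    · rw [← h]; simp
    · have hAp : 0 < A := by rw [hA]; exact h.trans_le (le_tot hα z)
      have h1 : Real.log (α z) ≤ Real.log (α z + β z) :=
        Real.log_le_log h (by linarith [hβ z])
      have h2 := log_le_tangent (show 0 < (A + B) / A by positivity) (show (0 : ℝ) < 2 by norm_num)
      rw [Real.log_div (by positivity) hAp.ne'] at h2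
      have h3 : (A + B) / A / 2 = (A + B) / (2 * A) := by field_simp
      rw [h3] at h2
      rw [← mul_add]
      apply mul_le_mul_of_nonneg_left _ h.le
      linarith
  have k1 := fun z => key hα hβ hA hB0 z
  have k2 := fun z => key hβ hα hB hA0 z
  have s1 : A * (Real.log 2 + (A + B) / (2 * A) - 1) ≤ A * Real.log 2 + (A + B) / 2 - A := by
    rcases hA0.eq_or_lt with h | h
    · rw [← h]; simp; positivity
    · apply le_of_eq; field_simp
  have s2 : B * (Real.log 2 + (B + A) / (2 * B) - 1) ≤ B * Real.log 2 + (B + A) / 2 - B := by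
    rcases hB0.eq_or_lt with h | h
    · rw [← h]; simp; positivity
    · apply le_of_eq; field_simp
  calc ∑ z, (α z + β z) * (Real.log (A + B) - Real.log (α z + β z))
      = ∑ z, (α z * (Real.log (A + B) - Real.log (α z + β z)) +
          β z * (Real.log (B + A) - Real.log (β z + α z))) := by
        refine Finset.sum_congr rfl fun z _ => ?_
        rw [add_comm B A, add_comm (β z) (α z)]; ring
    _ ≤ ∑ z, ((α z * (Real.log A - Real.log (α z)) +
        α z * (Real.log 2 + (A + B) / (2 * A) - 1)) +
        (β z * (Real.log B - Real.log (β z)) +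
        β z * (Real.log 2 + (B + A) / (2 * B) - 1))) :=
        Finset.sum_le_sum fun z _ => add_le_add (k1 z) (k2 z)
    _ = ∑ z, α z * (Real.log A - Real.log (α z)) + A * (Real.log 2 + (A + B) / (2 * A) - 1) +
        (∑ z, β z * (Real.log B - Real.log (β z)) +
          B * (Real.log 2 + (B + A) / (2 * B) - 1)) := by
        simp only [Finset.sum_add_distrib, ← Finset.sum_mul]
        rw [← hA, ← hB]
    _ ≤ _ := by nlinarith

theorem ent_split {U : Type*} [Fintype U] {α : Z → ℝ} (hα : ∀ z, 0 ≤ α z) {f : U → Z → ℝ}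
    (hf : ∀ u z, 0 ≤ f u z) (hf1 : ∀ z, ∑ u, f u z = 1) :
    ent α = ∑ u, (ent (fun z => α z * f u z) +
      ∑ z, α z * f u z * Real.log (f u z * (∑ z, α z) / ∑ z, α z * f u z)) := by
  simp only [ent_eq]
  set A := ∑ z, α z with hA
  have h1 : ∀ u, (∑ z, α z * f u z * (Real.log (∑ z, α z * f u z) - Real.log (α z * f u z)) +
      ∑ z, α z * f u z * Real.log (f u z * A / ∑ z, α z * f u z)) =
      ∑ z, α z * f u z * (Real.log A - Real.log (α z)) := by
    intro u
    rw [← Finset.sum_add_distrib]
    refine Finset.sum_congr rfl fun z _ => ?_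
    rcases (hα z).eq_or_lt with h | h
    · rw [← h]; simp
    · rcases (hf u z).eq_or_lt with h' | h'
      · rw [← h']; simp
      · have hAp : 0 < A := h.trans_le (le_tot hα z)
        have hAu : 0 < ∑ z, α z * f u z :=
          (mul_pos h h').trans_le (le_tot (fun z => mul_nonneg (hα z) (hf u z)) z)
        rw [Real.log_div (by positivity) hAu.ne', Real.log_mul h'.ne' hAp.ne',
          Real.log_mul h.ne' h'.ne']
        ring
  simp only [h1]
  rw [Finset.sum_comm]
  refine Finset.sum_congr rfl fun z _ => ?_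
  rw [← Finset.sum_mul, ← Finset.mul_sum, hf1, mul_one]

theorem loss_good {α : Z → ℝ} (hα : ∀ z, 0 ≤ α z) {f : Z → ℝ} (hf : ∀ z, 0 ≤ f z) {lam : ℝ}
    (hl : 0 < lam) :
    ∑ z, α z * f z * Real.log (f z * (∑ z, α z) / ∑ z, α z * f z) ≤
      (∑ z, α z * f z) * (Real.log lam - 1) +
        lam⁻¹ * ((∑ z, α z) * ((∑ z, α z * f z ^ 2) / ∑ z, α z * f z)) := by
  set A := ∑ z, α z with hA
  set C := ∑ z, α z * f z with hC
  have hA0 : 0 ≤ A := Finset.sum_nonneg fun z _ => hα z
  have hC0 : 0 ≤ C := Finset.sum_nonneg fun z _ => mul_nonneg (hα z) (hf z)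
  have h1 : ∀ z, α z * f z * Real.log (f z * A / C) ≤
      α z * f z * (Real.log lam - 1) + lam⁻¹ * (A * (α z * f z ^ 2 / C)) := by
    intro z
    rcases (mul_nonneg (hα z) (hf z)).eq_or_lt with h | h
    · rw [← h, zero_mul, zero_mul, zero_add]
      have : 0 ≤ α z * f z ^ 2 / C := div_nonneg (mul_nonneg (hα z) (sq_nonneg _)) hC0
      positivity
    · have hz : 0 < α z := pos_of_mul_pos_left h (hf z)
      have hfz : 0 < f z := pos_of_mul_pos_right h (hα z)
      have hAp : 0 < A := hz.trans_le (le_tot hα z)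
      have hCp : 0 < C := h.trans_le (le_tot (fun z => mul_nonneg (hα z) (hf z)) z)
      have h2 := log_le_tangent (show 0 < f z * A / C by positivity) hl
      have h3 := mul_le_mul_of_nonneg_left h2 h.le
      have h4 : α z * f z * (Real.log lam + f z * A / C / lam - 1) =
          α z * f z * (Real.log lam - 1) + lam⁻¹ * (A * (α z * f z ^ 2 / C)) := by
        field_simp
        ring
      rwa [h4] at h3
  refine (Finset.sum_le_sum fun z _ => h1 z).trans (le_of_eq ?_)
  rw [Finset.sum_add_distrib, ← Finset.sum_mul, ← Finset.mul_sum, ← Finset.mul_sum,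
    ← Finset.sum_div]

theorem loss_crude {α : Z → ℝ} (hα : ∀ z, 0 ≤ α z) {f : Z → ℝ} (hf : ∀ z, 0 ≤ f z)
    (hf1 : ∀ z, f z ≤ 1) {lam : ℝ} (hl : 0 < lam) :
    ∑ z, α z * f z * Real.log (f z * (∑ z, α z) / ∑ z, α z * f z) ≤
      (∑ z, α z * f z) * (Real.log lam - 1) + lam⁻¹ * ∑ z, α z := by
  refine (loss_good hα hf hl).trans ?_
  have hA0 : 0 ≤ ∑ z, α z := Finset.sum_nonneg fun z _ => hα z
  have hC0 : 0 ≤ ∑ z, α z * f z := Finset.sum_nonneg fun z _ => mul_nonneg (hα z) (hf z)
  have h1 : (∑ z, α z * f z ^ 2) / ∑ z, α z * f z ≤ 1 := by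
    refine div_le_one_of_le₀ ?_ hC0
    refine Finset.sum_le_sum fun z _ => mul_le_mul_of_nonneg_left ?_ (hα z)
    nlinarith [hf z, hf1 z]
  have h2 : (∑ z, α z) * ((∑ z, α z * f z ^ 2) / ∑ z, α z * f z) ≤ ∑ z, α z :=
    mul_le_of_le_one_right hA0 h1
  have h3 := mul_le_mul_of_nonneg_left h2 (inv_nonneg.mpr hl.le)
  linarith

end Ent

end P309
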