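import Vale.Agent.P309.Defs

/-!
# P309 : module EntSum (totals of the loss bounds over the messages)
-/

namespace P309

open MeasureTheory ProbabilityTheory
open scoped ENNReal RealInnerProductSpace

/-- elementary bound `- p log p ≤ p log Q + 1 / Q` -/
theorem EntSum.neg_mul_log_le {p : ℝ} (hp : 0 < p) {Q : ℕ} (hQ : 1 ≤ Q) :
    -(p * Real.log p) ≤ p * Real.log Q + (Q : ℝ)⁻¹ := by
  have hQ0 : (0 : ℝ) < Q := by exact_mod_cast hQ
  have h1 : Real.log ((p * Q)⁻¹) ≤ (p * Q)⁻¹ - 1 :=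
    Real.log_le_sub_one_of_pos (by positivity)
  rw [Real.log_inv, Real.log_mul hp.ne' hQ0.ne'] at h1
  have h2 : p * (-(Real.log p + Real.log Q)) ≤ p * ((p * Q)⁻¹ - 1) :=
    mul_le_mul_of_nonneg_left h1 hp.le
  have h3 : p * ((p * Q)⁻¹ - 1) = (Q : ℝ)⁻¹ - p := by
    field_simp
  rw [h3] at h2
  linarith

/-- bound for one message with positive probability -/
theorem EntSum.one_good {p P : ℝ} (hp : 0 < p) (hP : 0 ≤ P) (hp1 : p ≤ 1) (hP1 : P ≤ 1)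
    {k : ℕ} (hk : 1 ≤ k) {B : ℝ} (hB : 1 ≤ B) {Q : ℕ} (hQ : 1 ≤ Q) :
    ∃ lam : ℝ, 0 < lam ∧
      p * (Real.log lam - 1) + lam⁻¹ * (p + B * P ^ (1 - (k : ℝ)⁻¹)) ≤
      p * Real.log (2 * B) + (1 - (k : ℝ)⁻¹) * P + (k : ℝ)⁻¹ * (p * Real.log Q + (Q : ℝ)⁻¹) := by
  set θ : ℝ := 1 - (k : ℝ)⁻¹ with hθ
  have hk0 : (1 : ℝ) ≤ k := by exact_mod_cast hk
  have hki : (k : ℝ)⁻¹ ≤ 1 := inv_le_one_of_one_le₀ hk0
  have hki0 : 0 ≤ (k : ℝ)⁻¹ := by positivity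
  have hθ0 : 0 ≤ θ := by rw [hθ]; linarith
  have hθ1 : θ ≤ 1 := by rw [hθ]; linarith
  set M : ℝ := max P p with hM
  have hM0 : 0 < M := lt_of_lt_of_le hp (le_max_right _ _)
  have hM1 : M ≤ 1 := max_le hP1 hp1
  have hMθ : 0 < M ^ θ := Real.rpow_pos_of_pos hM0 θ
  have hMp : p ≤ M ^ θ := by
    calc p ≤ M := le_max_right _ _
      _ = M ^ (1 : ℝ) := (Real.rpow_one M).symm
      _ ≤ M ^ θ := Real.rpow_le_rpow_of_exponent_ge hM0 hM1 hθ1
  have hPM : P ^ θ ≤ M ^ θ := Real.rpow_le_rpow hP (le_max_left _ _) hθ0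
  have hB0 : 0 < B := by linarith
  refine ⟨2 * B * M ^ θ / p, by positivity, ?_⟩
  have h1 : (2 * B * M ^ θ / p)⁻¹ * (p + B * P ^ θ) ≤ p := by
    rw [inv_div, div_mul_eq_mul_div, div_le_iff₀ (by positivity)]
    have h2 : p + B * P ^ θ ≤ 2 * B * M ^ θ := by nlinarith
    exact mul_le_mul_of_nonneg_left h2 hp.le
  have h3 : Real.log (2 * B * M ^ θ / p) = Real.log (2 * B) + θ * Real.log M - Real.log p := by
    rw [Real.log_div (by positivity) hp.ne', Real.log_mul (by positivity) hMθ.ne',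
      Real.log_rpow hM0]
  have h4 : p * (Real.log M - Real.log p) ≤ P := by
    have h5 : Real.log (M / p) ≤ M / p - 1 := Real.log_le_sub_one_of_pos (by positivity)
    rw [Real.log_div hM0.ne' hp.ne'] at h5
    have h6 : p * (Real.log M - Real.log p) ≤ p * (M / p - 1) :=
      mul_le_mul_of_nonneg_left h5 hp.le
    have h7 : p * (M / p - 1) = M - p := by field_simp
    have h8 : M - p ≤ P := by
      rcases max_cases P p with ⟨h, _⟩ | ⟨h, _⟩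
      · rw [hM, h]; linarith
      · rw [hM, h]; linarith
    linarith
  have h9 := EntSum.neg_mul_log_le hp hQ
  have h10 : θ * (p * (Real.log M - Real.log p)) ≤ θ * P := mul_le_mul_of_nonneg_left h4 hθ0
  have h11 : (k : ℝ)⁻¹ * (-(p * Real.log p)) ≤ (k : ℝ)⁻¹ * (p * Real.log Q + (Q : ℝ)⁻¹) :=
    mul_le_mul_of_nonneg_left h9 hki0
  have hkθ : (k : ℝ)⁻¹ = 1 - θ := by rw [hθ]; ring
  rw [h3]
  have h12 : p * (Real.log (2 * B) + θ * Real.log M - Real.log p - 1) +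
      (2 * B * M ^ θ / p)⁻¹ * (p + B * P ^ θ) ≤
      p * Real.log (2 * B) + θ * (p * (Real.log M - Real.log p)) +
        (k : ℝ)⁻¹ * (-(p * Real.log p)) := by
    rw [hkθ]
    nlinarith
  linarith

/-- good messages: total of the bounds with `λ = 2 B (P*)^{1-1/k} / p` -/
theorem sum_good {U : Type*} [Fintype U] {p P : U → ℝ} (hp : ∀ u, 0 ≤ p u) (hP : ∀ u, 0 ≤ P u)
    (hp1 : ∑ u, p u ≤ 1) (hP1 : ∑ u, P u ≤ 1) {k : ℕ} (hk : 1 ≤ k) {B : ℝ} (hB : 1 ≤ B)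
    {Q : ℕ} (hQ : (Finset.univ.filter fun u => p u ≠ 0).card ≤ Q) (hQ1 : 1 ≤ Q) :
    ∃ lam : U → ℝ, (∀ u, 0 < lam u) ∧
      ∑ u, (p u * (Real.log (lam u) - 1) +
        (lam u)⁻¹ * (p u + B * (P u) ^ (1 - (k : ℝ)⁻¹))) ≤
      Real.log (2 * B) + 2 + (k : ℝ)⁻¹ * Real.log Q := by
  classical
  have hk0 : (1 : ℝ) ≤ k := by exact_mod_cast hk
  have hki : (k : ℝ)⁻¹ ≤ 1 := inv_le_one_of_one_le₀ hk0
  have hki0 : 0 ≤ (k : ℝ)⁻¹ := by positivity
  have hθ0 : 0 ≤ 1 - (k : ℝ)⁻¹ := by linarith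
  have hB0 : 0 < B := by linarith
  have hQ0 : (0 : ℝ) < Q := by exact_mod_cast hQ1
  have hlQ : 0 ≤ Real.log Q := Real.log_nonneg (by exact_mod_cast hQ1)
  have hlB : 0 ≤ Real.log (2 * B) := Real.log_nonneg (by linarith)
  have hpu : ∀ u, p u ≤ 1 := fun u =>
    (Finset.single_le_sum (fun v _ => hp v) (Finset.mem_univ u)).trans hp1
  have hPu : ∀ u, P u ≤ 1 := fun u =>
    (Finset.single_le_sum (fun v _ => hP v) (Finset.mem_univ u)).trans hP1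
  set N : ℝ := (Fintype.card U : ℝ) + 1 with hN
  have hN0 : 0 < N := by positivity
  have key : ∀ u, ∃ lam : ℝ, 0 < lam ∧
      p u * (Real.log lam - 1) + lam⁻¹ * (p u + B * P u ^ (1 - (k : ℝ)⁻¹)) ≤
      p u * Real.log (2 * B) + (1 - (k : ℝ)⁻¹) * P u + (k : ℝ)⁻¹ * (p u * Real.log Q +
        (if p u ≠ 0 then (Q : ℝ)⁻¹ else 0)) + N⁻¹ := by
    intro u
    by_cases h0 : p u = 0
    · refine ⟨B * N, by positivity, ?_⟩
      have h1 : P u ^ (1 - (k : ℝ)⁻¹) ≤ 1 := Real.rpow_le_one (hP u) (hPu u) hθ0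
      have h2 : (B * N)⁻¹ * (B * P u ^ (1 - (k : ℝ)⁻¹)) ≤ N⁻¹ := by
        rw [mul_inv]
        calc B⁻¹ * N⁻¹ * (B * P u ^ (1 - (k : ℝ)⁻¹))
            = N⁻¹ * (P u ^ (1 - (k : ℝ)⁻¹)) * (B⁻¹ * B) := by ring
          _ = N⁻¹ * (P u ^ (1 - (k : ℝ)⁻¹)) := by rw [inv_mul_cancel₀ hB0.ne', mul_one]
          _ ≤ N⁻¹ * 1 := mul_le_mul_of_nonneg_left h1 (by positivity)
          _ = N⁻¹ := mul_one _
      have h3 : 0 ≤ (1 - (k : ℝ)⁻¹) * P u := mul_nonneg hθ0 (hP u)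
      simp only [h0, zero_mul, zero_add, ne_eq, not_true_eq_false, if_false, mul_zero, add_zero]
      linarith
    · have h1 : 0 < p u := lt_of_le_of_ne (hp u) (Ne.symm h0)
      obtain ⟨lam, hl, hle⟩ := EntSum.one_good h1 (hP u) (hpu u) (hPu u) hk hB hQ1
      refine ⟨lam, hl, ?_⟩
      rw [if_pos h0]
      have h2 : 0 < N⁻¹ := by positivity
      linarith
  choose lam hl hle using key
  refine ⟨lam, hl, ?_⟩
  calc ∑ u, (p u * (Real.log (lam u) - 1) +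
        (lam u)⁻¹ * (p u + B * (P u) ^ (1 - (k : ℝ)⁻¹)))
      ≤ ∑ u, (p u * Real.log (2 * B) + (1 - (k : ℝ)⁻¹) * P u + (k : ℝ)⁻¹ * (p u * Real.log Q +
        (if p u ≠ 0 then (Q : ℝ)⁻¹ else 0)) + N⁻¹) := Finset.sum_le_sum fun u _ => hle u
    _ = (∑ u, p u) * Real.log (2 * B) + (1 - (k : ℝ)⁻¹) * ∑ u, P u +
        (k : ℝ)⁻¹ * ((∑ u, p u) * Real.log Q +
          ((Finset.univ.filter fun u => p u ≠ 0).card : ℝ) * (Q : ℝ)⁻¹) +
          (Fintype.card U : ℝ) * N⁻¹ := by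
        simp only [Finset.sum_add_distrib, ← Finset.sum_mul, ← Finset.mul_sum,
          ← Finset.sum_filter, Finset.sum_const, nsmul_eq_mul, Finset.card_univ]
    _ ≤ 1 * Real.log (2 * B) + (1 - (k : ℝ)⁻¹) * 1 +
        (k : ℝ)⁻¹ * (1 * Real.log Q + 1) + 1 := by
        have h1 : (∑ u, p u) * Real.log (2 * B) ≤ 1 * Real.log (2 * B) :=
          mul_le_mul_of_nonneg_right hp1 hlB
        have h2 : (1 - (k : ℝ)⁻¹) * ∑ u, P u ≤ (1 - (k : ℝ)⁻¹) * 1 :=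
          mul_le_mul_of_nonneg_left hP1 hθ0
        have h3 : ((Finset.univ.filter fun u => p u ≠ 0).card : ℝ) * (Q : ℝ)⁻¹ ≤ 1 := by
          rw [← div_eq_mul_inv, div_le_one hQ0]
          exact_mod_cast hQ
        have h4 : (∑ u, p u) * Real.log Q ≤ 1 * Real.log Q := mul_le_mul_of_nonneg_right hp1 hlQ
        have h5 : (Fintype.card U : ℝ) * N⁻¹ ≤ 1 := by
          rw [← div_eq_mul_inv, div_le_one hN0, hN]
          linarith
        have h6 : (k : ℝ)⁻¹ * ((∑ u, p u) * Real.log Q +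
            ((Finset.univ.filter fun u => p u ≠ 0).card : ℝ) * (Q : ℝ)⁻¹) ≤
            (k : ℝ)⁻¹ * (1 * Real.log Q + 1) :=
          mul_le_mul_of_nonneg_left (add_le_add h4 h3) hki0
        linarith
    _ = Real.log (2 * B) + 2 + (k : ℝ)⁻¹ * Real.log Q := by ring

/-- bad messages -/
theorem sum_bad {U : Type*} [Fintype U] {p : U → ℝ} (hp : ∀ u, 0 ≤ p u) {s : ℝ} (hs : 0 < s)
    (hs1 : s ≤ 1) (hp1 : ∑ u, p u ≤ s) {Q : ℕ}
    (hQ : (Finset.univ.filter fun u => p u ≠ 0).card ≤ Q) (hQ1 : 1 ≤ Q) (hsu : ∀ u, p u ≤ 1) :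
    ∃ lam : U → ℝ, (∀ u, 0 < lam u) ∧
      ∑ u, (p u * (Real.log (lam u) - 1) + (lam u)⁻¹) ≤ 2 + s * Real.log Q := by
  classical
  have hQ0 : (0 : ℝ) < Q := by exact_mod_cast hQ1
  have hlQ : 0 ≤ Real.log Q := Real.log_nonneg (by exact_mod_cast hQ1)
  set N : ℝ := (Fintype.card U : ℝ) + 1 with hN
  have hN0 : 0 < N := by positivity
  have key : ∀ u, ∃ lam : ℝ, 0 < lam ∧
      p u * (Real.log lam - 1) + lam⁻¹ ≤ p u * Real.log Q +
        (if p u ≠ 0 then (Q : ℝ)⁻¹ else 0) + N⁻¹ := by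
    intro u
    by_cases h0 : p u = 0
    · refine ⟨N, hN0, ?_⟩
      simp [h0]
    · have h1 : 0 < p u := lt_of_le_of_ne (hp u) (Ne.symm h0)
      refine ⟨(p u)⁻¹, by positivity, ?_⟩
      rw [if_pos h0, Real.log_inv, inv_inv]
      have h2 := EntSum.neg_mul_log_le h1 hQ1
      have h3 : 0 < N⁻¹ := by positivity
      linarith
  choose lam hl hle using key
  refine ⟨lam, hl, ?_⟩
  calc ∑ u, (p u * (Real.log (lam u) - 1) + (lam u)⁻¹)
      ≤ ∑ u, (p u * Real.log Q + (if p u ≠ 0 then (Q : ℝ)⁻¹ else 0) + N⁻¹) :=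
        Finset.sum_le_sum fun u _ => hle u
    _ = (∑ u, p u) * Real.log Q +
          ((Finset.univ.filter fun u => p u ≠ 0).card : ℝ) * (Q : ℝ)⁻¹ +
          (Fintype.card U : ℝ) * N⁻¹ := by
        simp only [Finset.sum_add_distrib, ← Finset.sum_mul,
          ← Finset.sum_filter, Finset.sum_const, nsmul_eq_mul, Finset.card_univ]
    _ ≤ s * Real.log Q + 1 + 1 := by
        have h3 : ((Finset.univ.filter fun u => p u ≠ 0).card : ℝ) * (Q : ℝ)⁻¹ ≤ 1 := by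
          rw [← div_eq_mul_inv, div_le_one hQ0]
          exact_mod_cast hQ
        have h4 : (∑ u, p u) * Real.log Q ≤ s * Real.log Q := mul_le_mul_of_nonneg_right hp1 hlQ
        have h5 : (Fintype.card U : ℝ) * N⁻¹ ≤ 1 := by
          rw [← div_eq_mul_inv, div_le_one hN0, hN]
          linarith
        linarith
    _ = 2 + s * Real.log Q := by ring

end P309
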