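import Vale.Agent.P309.Defs

/-!
# P309, module GoodPart : the contribution of the good messages in one phase
-/

namespace P309

open MeasureTheory ProbabilityTheory
open scoped ENNReal RealInnerProductSpace

namespace GP

/-! ### measurability -/

lemma isProb_rows (V : Type*) [NormedAddCommGroup V] [InnerProductSpace ℝ V]
    [FiniteDimensional ℝ V] [MeasurableSpace V] [BorelSpace V] (n : ℕ) :
    IsProbabilityMeasure (rows V n) := by
  unfold rows; infer_instance

lemma isProb_glab (n : ℕ) : IsProbabilityMeasure (glab n) := by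
  unfold glab; infer_instance

lemma measurable_sg {d : ℕ} : Measurable (sg : Eu d → Eu d) := by
  unfold sg; fun_prop

lemma measurable_shift' {L N d : ℕ} (z : Path L N) :
    Measurable fun G : Code L N d => shift G z := by
  unfold shift; fun_prop

lemma measurable_lab {n d : ℕ} :
    Measurable fun p : (Fin n → Eu d) × Eu d => lab p.1 p.2 := by
  unfold lab; fun_prop

lemma measurable_msg {n d : ℕ} {H : Set ((Fin n → Eu d) × (Fin n → ℝ))}
    (hH : MeasurableSet H) : Measurable (msg H) := by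
  have := isProb_rows (Eu d) n
  have h1 : MeasurableSet {p : Eu d × (Fin n → Eu d) | (p.2, lab p.2 (sg p.1)) ∈ H} := by
    have h2 : Measurable fun p : Eu d × (Fin n → Eu d) => (p.2, lab p.2 (sg p.1)) := by
      refine measurable_snd.prodMk ?_
      exact measurable_lab.comp (measurable_snd.prodMk (measurable_sg.comp measurable_fst))
    exact h2 hH
  exact (measurable_measure_prodMk_left h1).ennreal_toReal

lemma measurable_refP {n d : ℕ} (l : ℕ) {H : Set ((Fin n → Eu d) × (Fin n → ℝ))}
    (hH : MeasurableSet H) : Measurable fun t => refP l t H := by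
  have := isProb_rows (Eu d) n
  have := isProb_glab n
  have h1 : MeasurableSet {p : Eu d × ((Fin n → Eu d) × (Fin n → ℝ)) |
      (p.2.1, lab p.2.1 (sg p.1) + ((1 / 4 : ℝ) ^ (l + 1)) • p.2.2) ∈ H} := by
    have h2 : Measurable fun p : Eu d × ((Fin n → Eu d) × (Fin n → ℝ)) =>
        (p.2.1, lab p.2.1 (sg p.1) + ((1 / 4 : ℝ) ^ (l + 1)) • p.2.2) := by
      refine (measurable_fst.comp measurable_snd).prodMk (Measurable.add ?_ ?_)
      · exact measurable_lab.comp ((measurable_fst.comp measurable_snd).prodMk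
          (measurable_sg.comp measurable_fst))
      · exact Measurable.const_smul (measurable_snd.comp measurable_snd) ((1 / 4 : ℝ) ^ (l + 1))
    exact h2 hH
  exact (measurable_measure_prodMk_left h1).ennreal_toReal

lemma msg_nonneg {n d : ℕ} (H : Set ((Fin n → Eu d) × (Fin n → ℝ))) (t : Eu d) :
    0 ≤ msg H t := measureReal_nonneg

lemma msg_le_one {n d : ℕ} (H : Set ((Fin n → Eu d) × (Fin n → ℝ))) (t : Eu d) :
    msg H t ≤ 1 := by
  have := isProb_rows (Eu d) n
  exact measureReal_le_one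

lemma refP_nonneg {n d : ℕ} (l : ℕ) (t : Eu d) (H : Set ((Fin n → Eu d) × (Fin n → ℝ))) :
    0 ≤ refP l t H := measureReal_nonneg

lemma refP_le_one {n d : ℕ} (l : ℕ) (t : Eu d) (H : Set ((Fin n → Eu d) × (Fin n → ℝ))) :
    refP l t H ≤ 1 := by
  have := isProb_rows (Eu d) n
  have := isProb_glab n
  exact measureReal_le_one

/-! ### paths -/

lemma sum_lev {L N : ℕ} (z' : Path L N) (f : Path L N → ℝ≥0∞) :
    ∑ z, f z = f z' + ∑ l : Fin L, ∑ z ∈ Lev z' l, f z := by
  classical
  have hdisj : Set.PairwiseDisjoint (↑(Finset.univ : Finset (Fin L))) (Lev z') := by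
    have key : ∀ l l' : Fin L, l < l' → ∀ z, z ∈ Lev z' l → z ∉ Lev z' l' := by
      intro l l' hll z hz hz'
      simp only [Lev, Finset.mem_filter, Finset.mem_univ, true_and] at hz hz'
      exact hz.2 (hz'.1 l hll)
    intro l _ l' _ hne
    rw [Function.onFun, Finset.disjoint_left]
    intro z hz hz'
    rcases lt_or_gt_of_ne hne with h | h
    · exact key l l' h z hz hz'
    · exact key l' l h z hz' hz
  rw [← Finset.sum_biUnion hdisj, ← Finset.add_sum_erase _ _ (Finset.mem_univ z')]
  congr 1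
  refine Finset.sum_congr ?_ fun _ _ => rfl
  ext z
  rw [Finset.mem_erase, Finset.mem_biUnion]
  constructor
  · rintro ⟨hne, _⟩
    have hex : (Finset.univ.filter fun l => z l ≠ z' l).Nonempty := by
      by_contra hcon
      rw [Finset.not_nonempty_iff_eq_empty, Finset.filter_eq_empty_iff] at hcon
      apply hne
      funext l
      by_contra h
      exact hcon (Finset.mem_univ l) h
    refine ⟨(Finset.univ.filter fun l => z l ≠ z' l).min' hex, Finset.mem_univ _, ?_⟩
    simp only [Lev, Finset.mem_filter, Finset.mem_univ, true_and]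
    constructor
    · intro i hi
      by_contra h
      have h1 := Finset.min'_le (Finset.univ.filter fun l => z l ≠ z' l) i
        (Finset.mem_filter.mpr ⟨Finset.mem_univ _, h⟩)
      exact absurd hi (not_lt.mpr h1)
    · have h1 := Finset.min'_mem (Finset.univ.filter fun l => z l ≠ z' l) hex
      exact (Finset.mem_filter.mp h1).2
  · rintro ⟨l, _, hz⟩
    simp only [Lev, Finset.mem_filter, Finset.mem_univ, true_and] at hz
    refine ⟨?_, Finset.mem_univ _⟩
    rintro rfl
    exact hz.2 rfl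

/-! ### Jensen -/

lemma rpow_tangent {x μ θ : ℝ} (hx : 0 ≤ x) (hμ : 0 < μ) (h0 : 0 ≤ θ) (h1 : θ ≤ 1) :
    x ^ θ ≤ θ * μ ^ (θ - 1) * x + (1 - θ) * μ ^ θ := by
  have h := Real.geom_mean_le_arith_mean2_weighted h0 (by linarith : 0 ≤ 1 - θ) hx hμ.le
    (by ring)
  have h2 : 0 < μ ^ (1 - θ) := Real.rpow_pos_of_pos hμ _
  have h3 : x ^ θ ≤ (θ * x + (1 - θ) * μ) * μ ^ (θ - 1) := by
    rw [show θ - 1 = -(1 - θ) by ring, Real.rpow_neg hμ.le, ← div_eq_mul_inv, le_div_iff₀ h2]
    exact h
  have h4 : μ * μ ^ (θ - 1) = μ ^ θ := by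
    nth_rewrite 1 [← Real.rpow_one μ]
    rw [← Real.rpow_add hμ]
    congr 1
    ring
  calc x ^ θ ≤ (θ * x + (1 - θ) * μ) * μ ^ (θ - 1) := h3
    _ = θ * μ ^ (θ - 1) * x + (1 - θ) * (μ * μ ^ (θ - 1)) := by ring
    _ = _ := by rw [h4]

lemma integrable_mul_bdd {d : ℕ} {a r : Eu d → ℝ} (hai : Integrable a) (hrm : Measurable r)
    (hr0 : ∀ t, 0 ≤ r t) (hr1 : ∀ t, r t ≤ 1) : Integrable fun t => a t * r t := by
  refine hai.mul_bdd (c := 1) hrm.aestronglyMeasurable
    (Filter.Eventually.of_forall fun t => ?_)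
  rw [Real.norm_of_nonneg (hr0 t)]
  exact hr1 t

lemma jensen_part {d L : ℕ} (hL : 1 ≤ L) {a : Eu d → ℝ} (ha0 : ∀ t, 0 ≤ a t)
    (hai : Integrable a) (hpos : 0 < ∫ t, a t)
    {r : Fin L → Eu d → ℝ} (hrm : ∀ l, Measurable (r l)) (hr0 : ∀ l t, 0 ≤ r l t)
    (hr1 : ∀ l t, r l t ≤ 1) {θ : ℝ} (h0 : 0 < θ) (h1 : θ ≤ 1) :
    ∑ l, ∫ t, a t * r l t ^ θ ≤
      (∫ t, a t) * (L * ((∫ t, a t)⁻¹ * ∫ t, a t * ((L : ℝ)⁻¹ * ∑ l, r l t)) ^ θ) := by
  have hL0 : (0 : ℝ) < L := by exact_mod_cast hL
  set A := ∫ t, a t with hA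
  have hi : ∀ l, Integrable fun t => a t * r l t := fun l =>
    integrable_mul_bdd hai (hrm l) (hr0 l) (hr1 l)
  have hrθ0 : ∀ l t, 0 ≤ r l t ^ θ := fun l t => Real.rpow_nonneg (hr0 l t) _
  have hrθ1 : ∀ l t, r l t ^ θ ≤ 1 := fun l t => Real.rpow_le_one (hr0 l t) (hr1 l t) h0.le
  have hiθ : ∀ l, Integrable fun t => a t * r l t ^ θ := fun l =>
    integrable_mul_bdd hai ((hrm l).pow_const θ) (hrθ0 l) (hrθ1 l)
  have hsum : ∫ t, a t * ((L : ℝ)⁻¹ * ∑ l, r l t) = (L : ℝ)⁻¹ * ∑ l, ∫ t, a t * r l t := by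
    rw [← integral_finsetSum _ (fun l _ => hi l), ← integral_const_mul]
    refine integral_congr_ae (Filter.Eventually.of_forall fun t => ?_)
    simp only
    rw [Finset.mul_sum, Finset.mul_sum, Finset.mul_sum]
    refine Finset.sum_congr rfl fun l _ => ?_
    ring
  set μ := A⁻¹ * ∫ t, a t * ((L : ℝ)⁻¹ * ∑ l, r l t) with hμdef
  have hterm : ∀ l, 0 ≤ ∫ t, a t * r l t := fun l =>
    integral_nonneg fun t => mul_nonneg (ha0 t) (hr0 l t)
  have hμ0 : 0 ≤ μ := by
    rw [hμdef, hsum]
    have := Finset.sum_nonneg fun l (_ : l ∈ Finset.univ) => hterm l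
    positivity
  rcases hμ0.eq_or_lt with hz | hμ
  · have hS : ∑ l, ∫ t, a t * r l t = 0 := by
      have h2 : A⁻¹ * ((L : ℝ)⁻¹ * ∑ l, ∫ t, a t * r l t) = 0 := by
        rw [← hsum, ← hμdef, ← hz]
      have h3 : A⁻¹ ≠ 0 := inv_ne_zero hpos.ne'
      have h4 : (L : ℝ)⁻¹ ≠ 0 := inv_ne_zero hL0.ne'
      rcases mul_eq_zero.mp h2 with h | h
      · exact absurd h h3
      · rcases mul_eq_zero.mp h with h | h
        · exact absurd h h4
        · exact h
    rw [Finset.sum_eq_zero_iff_of_nonneg fun l _ => hterm l] at hS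
    have h5 : ∀ l, ∫ t, a t * r l t ^ θ = 0 := by
      intro l
      have h6 := hS l (Finset.mem_univ l)
      rw [integral_eq_zero_iff_of_nonneg (fun t => mul_nonneg (ha0 t) (hr0 l t)) (hi l)] at h6
      rw [integral_eq_zero_iff_of_nonneg (fun t => mul_nonneg (ha0 t) (hrθ0 l t)) (hiθ l)]
      filter_upwards [h6] with t ht
      simp only [Pi.zero_apply] at ht ⊢
      rcases mul_eq_zero.mp ht with h | h
      · rw [h, zero_mul]
      · rw [h, Real.zero_rpow h0.ne', mul_zero]
    rw [Finset.sum_eq_zero fun l _ => h5 l]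
    have := Real.rpow_nonneg hμ0 θ
    positivity
  · have h2 : ∀ l, ∫ t, a t * r l t ^ θ ≤
        θ * μ ^ (θ - 1) * (∫ t, a t * r l t) + (1 - θ) * μ ^ θ * A := by
      intro l
      rw [hA, ← integral_const_mul, ← integral_const_mul,
        ← integral_add ((hi l).const_mul _) (hai.const_mul _)]
      refine integral_mono (hiθ l) (((hi l).const_mul _).add (hai.const_mul _)) fun t => ?_
      have h3 := rpow_tangent (hr0 l t) hμ h0.le h1
      have h4 := mul_le_mul_of_nonneg_left h3 (ha0 t)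
      simp only
      linarith
    refine (Finset.sum_le_sum fun l _ => h2 l).trans (le_of_eq ?_)
    rw [Finset.sum_add_distrib, ← Finset.mul_sum, Finset.sum_const, Finset.card_univ,
      Fintype.card_fin, nsmul_eq_mul]
    have h3 : ∑ l, ∫ t, a t * r l t = L * A * μ := by
      rw [hμdef, hsum]
      have := hpos.ne'
      field_simp
    have h4 : μ * μ ^ (θ - 1) = μ ^ θ := by
      nth_rewrite 1 [← Real.rpow_one μ]
      rw [← Real.rpow_add hμ]
      congr 1
      ring
    rw [h3]
    calc θ * μ ^ (θ - 1) * (L * A * μ) + L * ((1 - θ) * μ ^ θ * A)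
        = θ * L * A * (μ * μ ^ (θ - 1)) + L * ((1 - θ) * μ ^ θ * A) := by ring
      _ = _ := by rw [h4]; ring

end GP

/-! ### the main estimate -/

open GP

open Classical in
theorem good_part_of {q d L : ℕ} (hq : 2 ≤ q) (hL : 1 ≤ L)
    [IsProbabilityMeasure (codeM L (2 ^ q) d)]
    (hshift : ∀ z : Path L (2 ^ q), MeasurePreserving
      (fun p : Code L (2 ^ q) d × Eu d => (p.1, p.2 + shift p.1 z))
      ((codeM L (2 ^ q) d).prod volume) ((codeM L (2 ^ q) d).prod volume))
    {H : Set ((Fin q → Eu d) × (Fin q → ℝ))} (hH : MeasurableSet H)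
    (hlevel : ∀ (z' : Path L (2 ^ q)) (l : Fin L) {t' : Eu d}, t' ∈ ann d →
      ∀ ω : Path L (2 ^ q) → Code L (2 ^ q) d → ℝ≥0∞, (∀ z, Measurable (ω z)) →
      (∀ G, ∑ z, ω z G ≤ 1) →
      ∫⁻ G, ∑ z ∈ Lev z' l, (if t' + (shift G z - shift G z') ∈ ann d then
        ω z G * ENNReal.ofReal (msg H (t' + (shift G z - shift G z'))) else 0)
        ∂(codeM L (2 ^ q) d) ≤
      ENNReal.ofReal (Real.exp (4000 * d)) * (ENNReal.ofReal (refP l t' H)) ^ (1 - (q : ℝ)⁻¹))
    {a : Eu d → ℝ} (ha0 : ∀ t, 0 ≤ a t) (ham : Measurable a) (hai : Integrable a)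
    (hsupp : ∀ t, t ∉ ann d → a t = 0) (hpos : 0 < ∫ t, a t) :
    (((2 ^ q : ℕ) : ℝ) ^ L)⁻¹ * ∫ p : Code L (2 ^ q) d × Eu d,
        (∑ z : Path L (2 ^ q), a (p.2 + shift p.1 z)) *
        ((∑ z : Path L (2 ^ q), a (p.2 + shift p.1 z) * msg H (p.2 + shift p.1 z) ^ 2) /
          ∑ z : Path L (2 ^ q), a (p.2 + shift p.1 z) * msg H (p.2 + shift p.1 z))
        ∂((codeM L (2 ^ q) d).prod volume) ≤
      (∫ t, a t) * ((∫ t, a t)⁻¹ * (∫ t, a t * msg H t) +
        L * Real.exp (4000 * d) *
        ((∫ t, a t)⁻¹ * ∫ t, a t * ((L : ℝ)⁻¹ * ∑ l : Fin L, refP l t H)) ^ (1 - (q : ℝ)⁻¹)) := by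
  have hqr : (2 : ℝ) ≤ q := by exact_mod_cast hq
  set θ : ℝ := 1 - (q : ℝ)⁻¹ with hθ
  have hqi : (q : ℝ)⁻¹ ≤ 1 / 2 := by
    rw [inv_eq_one_div]
    exact one_div_le_one_div_of_le (by norm_num) hqr
  have hqi0 : 0 ≤ (q : ℝ)⁻¹ := by positivity
  have hθ0 : 0 < θ := by rw [hθ]; linarith
  have hθ1 : θ ≤ 1 := by rw [hθ]; linarith
  set E : ℝ := Real.exp (4000 * d) with hE
  have hE0 : 0 < E := Real.exp_pos _
  set b : Eu d → ℝ := fun t => a t * msg H t with hb
  have hmm := measurable_msg hH
  have hb0 : ∀ t, 0 ≤ b t := fun t => mul_nonneg (ha0 t) (msg_nonneg H t)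
  have hbm : Measurable b := ham.mul hmm
  -- shifted arguments
  have hmT : ∀ z z' : Path L (2 ^ q), Measurable fun p : Code L (2 ^ q) d × Eu d =>
      p.2 + (shift p.1 z - shift p.1 z') := by
    intro z z'
    exact measurable_snd.add (((measurable_shift' z).comp measurable_fst).sub
      ((measurable_shift' z').comp measurable_fst))
  have hmT1 : ∀ z : Path L (2 ^ q), Measurable fun p : Code L (2 ^ q) d × Eu d =>
      p.2 + shift p.1 z := by
    intro z
    exact measurable_snd.add ((measurable_shift' z).comp measurable_fst)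
  let om : Path L (2 ^ q) → Path L (2 ^ q) → Code L (2 ^ q) d × Eu d → ℝ := fun z' z p =>
    b (p.2 + (shift p.1 z - shift p.1 z')) /
      ∑ y : Path L (2 ^ q), b (p.2 + (shift p.1 y - shift p.1 z'))
  have hom0 : ∀ z' z p, 0 ≤ om z' z p := fun z' z p =>
    div_nonneg (hb0 _) (Finset.sum_nonneg fun y _ => hb0 _)
  have hom1 : ∀ z' z p, om z' z p ≤ 1 := fun z' z p =>
    div_le_one_of_le₀ (Finset.single_le_sum (f := fun y : Path L (2 ^ q) =>
      b (p.2 + (shift p.1 y - shift p.1 z'))) (fun y _ => hb0 _) (Finset.mem_univ z))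
      (Finset.sum_nonneg fun y _ => hb0 _)
  have homm : ∀ z' z, Measurable (om z' z) := fun z' z =>
    (hbm.comp (hmT z z')).div (Finset.measurable_sum _ fun y _ => hbm.comp (hmT y z'))
  have homs : ∀ z' p, ∑ z, ENNReal.ofReal (om z' z p) ≤ 1 := by
    intro z' p
    rw [← ENNReal.ofReal_sum_of_nonneg fun z _ => hom0 z' z p, ← Finset.sum_div]
    exact ENNReal.ofReal_le_one.mpr (div_self_le_one _)
  let g : Path L (2 ^ q) → Code L (2 ^ q) d × Eu d → ℝ≥0∞ := fun z' p =>
    ENNReal.ofReal (a p.2) * ∑ z, ENNReal.ofReal (om z' z p) *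
      ENNReal.ofReal (msg H (p.2 + (shift p.1 z - shift p.1 z')))
  have hgm : ∀ z', Measurable (g z') := by
    intro z'
    refine (ham.comp measurable_snd).ennreal_ofReal.mul (Finset.measurable_sum _ fun z _ => ?_)
    exact (homm z' z).ennreal_ofReal.mul (hmm.comp (hmT z z')).ennreal_ofReal
  -- the integrand
  let F : Code L (2 ^ q) d × Eu d → ℝ := fun p =>
    (∑ z : Path L (2 ^ q), a (p.2 + shift p.1 z)) *
        ((∑ z : Path L (2 ^ q), a (p.2 + shift p.1 z) * msg H (p.2 + shift p.1 z) ^ 2) /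
          ∑ z : Path L (2 ^ q), a (p.2 + shift p.1 z) * msg H (p.2 + shift p.1 z))
  have hF0 : ∀ p, 0 ≤ F p := fun p =>
    mul_nonneg (Finset.sum_nonneg fun z _ => ha0 _) (div_nonneg
      (Finset.sum_nonneg fun z _ => mul_nonneg (ha0 _) (sq_nonneg _))
      (Finset.sum_nonneg fun z _ => hb0 _))
  have hFm : Measurable F := by
    refine (Finset.measurable_sum _ fun z _ => ham.comp (hmT1 z)).mul
      ((Finset.measurable_sum _ fun z _ => ?_).div
      (Finset.measurable_sum _ fun z _ => ?_))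
    · exact (ham.comp (hmT1 z)).mul ((hmm.comp (hmT1 z)).pow_const 2)
    · exact (ham.comp (hmT1 z)).mul (hmm.comp (hmT1 z))
  have hFg : ∀ p, ENNReal.ofReal (F p) = ∑ z', g z' (p.1, p.2 + shift p.1 z') := by
    intro p
    have e1 : ∀ z z' : Path L (2 ^ q), p.2 + shift p.1 z' + (shift p.1 z - shift p.1 z') =
        p.2 + shift p.1 z := by
      intro z z'
      abel
    have e2 : F p = (∑ z : Path L (2 ^ q), a (p.2 + shift p.1 z)) *
        ∑ z : Path L (2 ^ q), b (p.2 + shift p.1 z) / (∑ y : Path L (2 ^ q),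
          b (p.2 + shift p.1 y)) * msg H (p.2 + shift p.1 z) := by
      show (∑ z : Path L (2 ^ q), a (p.2 + shift p.1 z)) *
        ((∑ z : Path L (2 ^ q), a (p.2 + shift p.1 z) * msg H (p.2 + shift p.1 z) ^ 2) /
          ∑ z : Path L (2 ^ q), b (p.2 + shift p.1 z)) = _
      congr 1
      rw [Finset.sum_div]
      refine Finset.sum_congr rfl fun z _ => ?_
      rw [hb]
      ring
    rw [e2, ENNReal.ofReal_mul (Finset.sum_nonneg fun z _ => ha0 _),
      ENNReal.ofReal_sum_of_nonneg fun z _ => ha0 _,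
      ENNReal.ofReal_sum_of_nonneg fun z _ => mul_nonneg (div_nonneg (hb0 _)
        (Finset.sum_nonneg fun y _ => hb0 _)) (msg_nonneg H _), Finset.sum_mul]
    refine Finset.sum_congr rfl fun z' _ => ?_
    show _ = ENNReal.ofReal (a (p.2 + shift p.1 z')) * ∑ z, ENNReal.ofReal
      (b (p.2 + shift p.1 z' + (shift p.1 z - shift p.1 z')) /
      ∑ y : Path L (2 ^ q), b (p.2 + shift p.1 z' + (shift p.1 y - shift p.1 z'))) *
      ENNReal.ofReal (msg H (p.2 + shift p.1 z' + (shift p.1 z - shift p.1 z')))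
    simp_rw [e1]
    congr 1
    refine Finset.sum_congr rfl fun z _ => ?_
    rw [ENNReal.ofReal_mul (div_nonneg (hb0 _) (Finset.sum_nonneg fun y _ => hb0 _))]
  -- the bound for one `z'`
  have hrm : ∀ l : Fin L, Measurable fun t => refP l t H := fun l => measurable_refP l hH
  set X : ℝ := (∫ t, a t * msg H t) + E * ∑ l : Fin L, ∫ t, a t * refP l t H ^ θ with hX
  have hi1 : Integrable fun t => a t * msg H t :=
    integrable_mul_bdd hai hmm (msg_nonneg H) (msg_le_one H)
  have hi2 : ∀ l : Fin L, Integrable fun t => a t * refP l t H ^ θ := fun l =>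
    integrable_mul_bdd hai ((hrm l).pow_const θ) (fun t => Real.rpow_nonneg (refP_nonneg l t H) _)
      (fun t => Real.rpow_le_one (refP_nonneg l t H) (refP_le_one l t H) hθ0.le)
  have hone : ∀ z', ∫⁻ p, g z' p ∂((codeM L (2 ^ q) d).prod volume) ≤ ENNReal.ofReal X := by
    intro z'
    rw [lintegral_prod_symm' _ (hgm z')]
    have h1 : ∀ t : Eu d, ∫⁻ G, g z' (G, t) ∂(codeM L (2 ^ q) d) ≤
        ENNReal.ofReal (a t * msg H t + E * ∑ l : Fin L, a t * refP l t H ^ θ) := by
      intro t
      by_cases ht : t ∈ ann d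
      · have h2 : ∀ G, g z' (G, t) = ENNReal.ofReal (a t) * ∑ z, ENNReal.ofReal (om z' z (G, t)) *
            ENNReal.ofReal (msg H (t + (shift G z - shift G z'))) := fun G => rfl
        have hmX : ∀ z : Path L (2 ^ q), Measurable fun G : Code L (2 ^ q) d =>
            ENNReal.ofReal (om z' z (G, t)) *
            ENNReal.ofReal (msg H (t + (shift G z - shift G z'))) := by
          intro z
          have hp : Measurable fun G : Code L (2 ^ q) d => (G, t) :=
            measurable_id.prodMk measurable_const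
          exact ((homm z' z).comp hp).ennreal_ofReal.mul
            (((hmm.comp (hmT z z')).comp hp).ennreal_ofReal)
        simp_rw [h2]
        rw [lintegral_const_mul _ (Finset.measurable_sum _ fun z _ => hmX z)]
        have h3 : ∫⁻ G, ∑ z, ENNReal.ofReal (om z' z (G, t)) *
            ENNReal.ofReal (msg H (t + (shift G z - shift G z'))) ∂(codeM L (2 ^ q) d) ≤
            ENNReal.ofReal (msg H t) + ∑ l : Fin L,
              ENNReal.ofReal E * (ENNReal.ofReal (refP l t H)) ^ θ := by
          simp_rw [sum_lev z']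
          rw [lintegral_add_left (hmX z'), lintegral_finsetSum _ fun l _ =>
            Finset.measurable_sum _ fun z _ => hmX z]
          refine add_le_add ?_ (Finset.sum_le_sum fun l _ => ?_)
          · have h4 : ∀ G : Code L (2 ^ q) d, ENNReal.ofReal (om z' z' (G, t)) *
                ENNReal.ofReal (msg H (t + (shift G z' - shift G z'))) ≤
                ENNReal.ofReal (msg H t) := by
              intro G
              rw [sub_self, add_zero]
              calc _ ≤ 1 * ENNReal.ofReal (msg H t) :=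
                    mul_le_mul_left (ENNReal.ofReal_le_one.mpr (hom1 z' z' (G, t))) _
                _ = _ := one_mul _
            refine (lintegral_mono h4).trans ?_
            rw [lintegral_const, measure_univ, mul_one]
          · refine le_trans (le_of_eq ?_) (hlevel z' l ht
              (fun z G => ENNReal.ofReal (om z' z (G, t))) (fun z => ?_) (fun G => ?_))
            · refine lintegral_congr fun G => Finset.sum_congr rfl fun z _ => ?_
              by_cases hin : t + (shift G z - shift G z') ∈ ann d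
              · rw [if_pos hin]
              · rw [if_neg hin]
                have h5 : om z' z (G, t) = 0 := by
                  show b (t + (shift G z - shift G z')) / _ = 0
                  rw [hb]
                  simp only
                  rw [hsupp _ hin, zero_mul, zero_div]
                rw [h5, ENNReal.ofReal_zero, zero_mul]
            · exact ((homm z' z).comp
                (measurable_id.prodMk measurable_const)).ennreal_ofReal
            · exact homs z' (G, t)
        refine (mul_le_mul_right h3 _).trans (le_of_eq ?_)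
        have h6 : ENNReal.ofReal (msg H t) + ∑ l : Fin L,
              ENNReal.ofReal E * (ENNReal.ofReal (refP l t H)) ^ θ =
            ENNReal.ofReal (msg H t + ∑ l : Fin L, E * refP l t H ^ θ) := by
          have hnn : ∀ l : Fin L, 0 ≤ E * refP l t H ^ θ := fun l =>
            mul_nonneg hE0.le (Real.rpow_nonneg (refP_nonneg l t H) _)
          rw [ENNReal.ofReal_add (msg_nonneg H t) (Finset.sum_nonneg fun l _ => hnn l),
            ENNReal.ofReal_sum_of_nonneg fun l _ => hnn l]
          congr 1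
          refine Finset.sum_congr rfl fun l _ => ?_
          rw [ENNReal.ofReal_mul hE0.le, ENNReal.ofReal_rpow_of_nonneg (refP_nonneg l t H) hθ0.le]
        rw [h6, ← ENNReal.ofReal_mul (ha0 t)]
        congr 1
        rw [mul_add, Finset.mul_sum, Finset.mul_sum]
        congr 1
        refine Finset.sum_congr rfl fun l _ => ?_
        ring
      · have h2 : ∀ G, g z' (G, t) = 0 := by
          intro G
          show ENNReal.ofReal (a t) * _ = 0
          rw [hsupp t ht, ENNReal.ofReal_zero, zero_mul]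
        simp_rw [h2]
        simp
    refine (lintegral_mono h1).trans (le_of_eq ?_)
    have hi3 : Integrable fun t => E * ∑ l : Fin L, a t * refP l t H ^ θ :=
      (integrable_finsetSum _ fun l _ => hi2 l).const_mul E
    rw [← ofReal_integral_eq_lintegral_ofReal
      (f := fun t => a t * msg H t + E * ∑ l : Fin L, a t * refP l t H ^ θ) (hi1.add hi3)
      (Filter.Eventually.of_forall fun t => add_nonneg (hb0 t) (mul_nonneg hE0.le
        (Finset.sum_nonneg fun l _ => mul_nonneg (ha0 t)
          (Real.rpow_nonneg (refP_nonneg l t H) _))))]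
    congr 1
    rw [hX, ← integral_finsetSum _ fun l _ => hi2 l, ← integral_const_mul]
    exact integral_add hi1 hi3
  -- assembling
  have hX0 : 0 ≤ X := by
    refine add_nonneg (integral_nonneg hb0) (mul_nonneg hE0.le (Finset.sum_nonneg fun l _ =>
      integral_nonneg fun t => mul_nonneg (ha0 t) (Real.rpow_nonneg (refP_nonneg l t H) _)))
  have hcard : Fintype.card (Path L (2 ^ q)) = (2 ^ q) ^ L := by
    rw [Fintype.card_fun, Fintype.card_fin, Fintype.card_fin]
  have htot : ∫⁻ p, ENNReal.ofReal (F p) ∂((codeM L (2 ^ q) d).prod volume) ≤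
      ENNReal.ofReal ((((2 ^ q : ℕ) : ℝ) ^ L) * X) := by
    simp_rw [hFg]
    have hsplit : ∫⁻ p, ∑ z', g z' (p.1, p.2 + shift p.1 z')
        ∂((codeM L (2 ^ q) d).prod volume) =
        ∑ z', ∫⁻ p, g z' (p.1, p.2 + shift p.1 z') ∂((codeM L (2 ^ q) d).prod volume) :=
      lintegral_finsetSum _ fun z' _ => (hgm z').comp (measurable_fst.prodMk (hmT1 z'))
    rw [hsplit]
    have h1 : ∀ z' : Path L (2 ^ q), ∫⁻ p, g z' (p.1, p.2 + shift p.1 z')
        ∂((codeM L (2 ^ q) d).prod volume) ≤ ENNReal.ofReal X := by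
      intro z'
      have h2 := (hshift z').lintegral_comp (hgm z')
      rw [h2]
      exact hone z'
    refine (Finset.sum_le_sum fun z' _ => h1 z').trans (le_of_eq ?_)
    rw [Finset.sum_const, Finset.card_univ, hcard, nsmul_eq_mul, ENNReal.ofReal_mul (by positivity)]
    congr 1
    rw [← Nat.cast_pow, ENNReal.ofReal_natCast]
  have hint : ∫ p, F p ∂((codeM L (2 ^ q) d).prod volume) ≤ (((2 ^ q : ℕ) : ℝ) ^ L) * X := by
    rw [integral_eq_lintegral_of_nonneg_ae (Filter.Eventually.of_forall hF0)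
      hFm.aestronglyMeasurable]
    exact ENNReal.toReal_le_of_le_ofReal (by positivity) htot
  have hN : (0 : ℝ) < ((2 ^ q : ℕ) : ℝ) ^ L := by positivity
  have h7 : (((2 ^ q : ℕ) : ℝ) ^ L)⁻¹ * ∫ p, F p ∂((codeM L (2 ^ q) d).prod volume) ≤ X := by
    rw [inv_mul_le_iff₀ hN]
    exact hint
  refine le_trans h7 ?_
  have h8 := jensen_part hL ha0 hai hpos (r := fun l t => refP l t H) hrm
    (fun l t => refP_nonneg l t H) (fun l t => refP_le_one l t H) hθ0 hθ1
  have h9 := mul_le_mul_of_nonneg_left h8 hE0.le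
  have h10 : (∫ t, a t) * ((∫ t, a t)⁻¹ * ∫ t, a t * msg H t) = ∫ t, a t * msg H t := by
    rw [← mul_assoc, mul_inv_cancel₀ hpos.ne', one_mul]
  rw [mul_add, h10, hX]
  have h11 : (∫ t, a t) * (L * E *
      ((∫ t, a t)⁻¹ * ∫ t, a t * ((L : ℝ)⁻¹ * ∑ l : Fin L, refP l t H)) ^ θ) =
      E * ((∫ t, a t) * (L *
      ((∫ t, a t)⁻¹ * ∫ t, a t * ((L : ℝ)⁻¹ * ∑ l : Fin L, refP l t H)) ^ θ)) := by ring
  rw [h11]
  linarith

end P309
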