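import Vale.Agent.P309.Defs

/-!
# P309 : finite grid, rounding, angles
-/

namespace P309

open MeasureTheory ProbabilityTheory
open scoped ENNReal RealInnerProductSpace

namespace Grid

variable {d : ℕ}

/-- grid point -/
noncomputable def pt (d K : ℕ) (h : ℝ) (u : Fin d → Fin K) : Eu d :=
  WithLp.toLp 2 fun j => -3 + (u j : ℝ) * h

/-- rounding -/
noncomputable def rd (d K : ℕ) (hK : 0 < K) (h : ℝ) (w : Eu d) : Fin d → Fin K :=
  fun j => ⟨min ⌊(w j + 3) / h⌋₊ (K - 1), by omega⟩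

theorem measurableSet_rd {K : ℕ} (hK : 0 < K) (h : ℝ) (u : Fin d → Fin K) :
    MeasurableSet {w : Eu d | rd d K hK h w = u} := by
  have h1 : {w : Eu d | rd d K hK h w = u} =
      ⋂ j, {w : Eu d | min ⌊(w j + 3) / h⌋₊ (K - 1) = (u j : ℕ)} := by
    ext w
    simp only [Set.mem_ofPred_eq, Set.mem_iInter, funext_iff, rd, Fin.ext_iff]
  rw [h1]
  refine MeasurableSet.iInter fun j => ?_
  have h2 : Measurable (fun w : Eu d => ⌊(w j + 3) / h⌋₊) := by
    refine Nat.measurable_floor.comp ?_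
    fun_prop
  have h3 : Measurable (fun w : Eu d => min ⌊(w j + 3) / h⌋₊ (K - 1)) := h2.min measurable_const
  exact h3 (measurableSet_singleton _)

theorem dist_rd {K : ℕ} (hK : 0 < K) {h : ℝ} (hh : 0 < h) (hK6 : 6 / h < K) {w : Eu d}
    (hw : ‖w‖ ≤ 3) : ‖pt d K h (rd d K hK h w) - w‖ ≤ √d * h := by
  have h1 : ∀ j, |(pt d K h (rd d K hK h w) - w) j| ≤ h := by
    intro j
    have hj : |w j| ≤ 3 := (by simpa using PiLp.norm_apply_le w j : |w j| ≤ ‖w‖).trans hw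
    rw [abs_le] at hj
    have h0 : 0 ≤ (w j + 3) / h := div_nonneg (by linarith) hh.le
    have hlt : ⌊(w j + 3) / h⌋₊ < K := by
      rw [Nat.floor_lt h0]
      refine lt_of_le_of_lt ?_ hK6
      exact div_le_div_of_nonneg_right (by linarith) hh.le
    have hmin : min ⌊(w j + 3) / h⌋₊ (K - 1) = ⌊(w j + 3) / h⌋₊ := min_eq_left (by omega)
    have h2 : (pt d K h (rd d K hK h w) - w) j = -3 + (⌊(w j + 3) / h⌋₊ : ℝ) * h - w j := by
      simp only [pt, rd, PiLp.sub_apply, hmin]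
    rw [h2]
    have h3 := Nat.floor_le h0
    have h4 := Nat.lt_floor_add_one ((w j + 3) / h)
    rw [le_div_iff₀ hh] at h3
    rw [div_lt_iff₀ hh] at h4
    rw [abs_le]
    constructor <;> nlinarith
  have h2 : ‖pt d K h (rd d K hK h w) - w‖ ^ 2 ≤ (√d * h) ^ 2 := by
    rw [EuclideanSpace.real_norm_sq_eq, mul_pow, Real.sq_sqrt (Nat.cast_nonneg d)]
    calc ∑ j, ((pt d K h (rd d K hK h w) - w) j) ^ 2 ≤ ∑ _j : Fin d, h ^ 2 := by
          refine Finset.sum_le_sum fun j _ => ?_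
          rw [← sq_abs]
          exact pow_le_pow_left₀ (abs_nonneg _) (h1 j) 2
      _ = d * h ^ 2 := by simp
  exact le_of_sq_le_sq h2 (by positivity)

/-- existence of a finite grid with rounding -/
theorem grid (hd : 1 ≤ d) {δ : ℝ} (hδ : 0 < δ) (hδ1 : δ ≤ 1) :
    ∃ K : ℕ, 0 < K ∧ (K : ℝ) ≤ 7 * √d / δ ∧ ∃ (r : Eu d → (Fin d → Fin K))
      (z : (Fin d → Fin K) → Eu d), (∀ u, MeasurableSet {w | r w = u}) ∧
      ∀ w, ‖w‖ ≤ 3 → ‖z (r w) - w‖ ≤ δ := by
  have hdR : (1 : ℝ) ≤ d := by exact_mod_cast hd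
  have hs : 1 ≤ √(d : ℝ) := Real.one_le_sqrt.mpr hdR
  set h := δ / √d with hh
  have h0 : 0 < h := by positivity
  set K := ⌊6 / h⌋₊ + 1 with hK
  have hK0 : 0 < K := by omega
  have hK6 : 6 / h < K := by
    rw [hK]; push_cast; exact Nat.lt_floor_add_one _
  refine ⟨K, hK0, ?_, rd d K hK0 h, pt d K h, fun u => measurableSet_rd hK0 h u, ?_⟩
  · have h1 : (⌊6 / h⌋₊ : ℝ) ≤ 6 / h := Nat.floor_le (by positivity)
    have h2 : 6 / h = 6 * √d / δ := by rw [hh]; field_simp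
    have h3 : 1 ≤ √(d : ℝ) / δ := by rw [le_div_iff₀ hδ]; linarith
    rw [hK]
    push_cast
    have h4 : 7 * √(d : ℝ) / δ = 6 * √d / δ + √d / δ := by ring
    linarith
  · intro w hw
    have := dist_rd hK0 h0 hK6 hw
    have h5 : √(d : ℝ) * h = δ := by rw [hh]; field_simp
    rwa [h5] at this

end Grid

/-- a point close to the sphere has a direction close to the sphere point -/
theorem angle_le {d : ℕ} {z s : Eu d} (hs : ‖s‖ = 1) {η : ℝ} (hη : η ≤ 1 / 2)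
    (h : ‖z - s‖ ≤ η) : Real.arccos ⟪‖z‖⁻¹ • z, s⟫ ≤ 2 * η := by
  have hη0 : 0 ≤ η := (norm_nonneg _).trans h
  have h1 : 1 - η ≤ ‖z‖ := by
    have := norm_sub_norm_le s z
    rw [norm_sub_rev, hs] at this
    linarith
  have hz : 0 < ‖z‖ := by linarith
  set c := ⟪‖z‖⁻¹ • z, s⟫ with hc
  have hcz : ⟪z, s⟫ = ‖z‖ * c := by
    rw [hc, inner_smul_left]; simp; field_simp
  have h2 : ‖z - s‖ ^ 2 = ‖z‖ ^ 2 - 2 * (‖z‖ * c) + 1 := by
    rw [norm_sub_sq_real, hs, hcz]; ring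
  have h3 : ‖z - s‖ ^ 2 ≤ η ^ 2 := pow_le_pow_left₀ (norm_nonneg _) h 2
  have hcle : c ≤ 1 := by
    have := real_inner_le_norm (‖z‖⁻¹ • z) s
    rw [norm_smul, norm_inv, norm_norm, inv_mul_cancel₀ hz.ne', hs, mul_one] at this
    exact this
  have hcpos : 0 < c := by
    by_contra hneg
    push Not at hneg
    nlinarith
  -- sin² ≤ η²
  have hsin : 1 - c ^ 2 ≤ η ^ 2 := by
    nlinarith [sq_nonneg (‖z‖ - c)]
  set θ := Real.arccos c with hθ
  have hθ0 : 0 ≤ θ := Real.arccos_nonneg c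
  have hθ1 : θ ≤ Real.pi / 2 := Real.arccos_le_pi_div_two.mpr hcpos.le
  have hcos : Real.cos θ = c := Real.cos_arccos (by linarith) hcle
  have hsinle : Real.sin θ ≤ η := by
    have h4 : Real.sin θ ^ 2 ≤ η ^ 2 := by
      rw [Real.sin_sq, hcos]; exact hsin
    exact le_of_sq_le_sq h4 hη0
  have hj : 2 / Real.pi * θ ≤ Real.sin θ := Real.mul_le_sin hθ0 hθ1
  have hpi := Real.pi_pos
  have hpi4 : Real.pi ≤ 4 := Real.pi_le_four
  have h5 : θ ≤ Real.pi / 2 * η := by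
    have h6 : 2 / Real.pi * θ ≤ η := hj.trans hsinle
    calc θ = Real.pi / 2 * (2 / Real.pi * θ) := by field_simp
      _ ≤ Real.pi / 2 * η := mul_le_mul_of_nonneg_left h6 (by positivity)
  nlinarith

end P309
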