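import Vale.Agent.P309.Defs

/-!
# P309 : module Run (measurability and semigroup property of the runs)
-/

namespace P309

open MeasureTheory ProbabilityTheory
open scoped ENNReal RealInnerProductSpace

variable {V : Type*} [NormedAddCommGroup V] [InnerProductSpace ℝ V] [FiniteDimensional ℝ V]
  [MeasurableSpace V] [BorelSpace V]

section Run

variable {S : Type*} [Fintype S] [DecidableEq S]

omit [NormedAddCommGroup V] [InnerProductSpace ℝ V] [FiniteDimensional ℝ V] [BorelSpace V]
  [DecidableEq S] in
theorem measurableSet_run {st : ℕ → S → V → ℝ → S}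
    (hst : ∀ i u v, MeasurableSet {p : V × ℝ | st i u p.1 p.2 = v}) (n i : ℕ) (u v : S) :
    MeasurableSet {p : (Fin n → V) × (Fin n → ℝ) | run st n i p.1 p.2 u = v} := by
  induction n generalizing i u with
  | zero => exact MeasurableSet.const (u = v)
  | succ n ih =>
    have h : {p : (Fin (n + 1) → V) × (Fin (n + 1) → ℝ) | run st (n + 1) i p.1 p.2 u = v} =
        ⋃ w : S, {p | st i u (p.1 0) (p.2 0) = w} ∩
          {p | run st n (i + 1) (Fin.tail p.1) (Fin.tail p.2) w = v} := by
      ext p
      simp only [Set.mem_ofPred_eq, Set.mem_iUnion, Set.mem_inter_iff, exists_eq_left']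
      rfl
    rw [h]
    refine MeasurableSet.iUnion fun w => ?_
    refine MeasurableSet.inter ?_ ?_
    · have h1 : Measurable fun p : (Fin (n + 1) → V) × (Fin (n + 1) → ℝ) => (p.1 0, p.2 0) := by
        fun_prop
      exact h1 (hst i u w)
    · have h1 : Measurable fun p : (Fin (n + 1) → V) × (Fin (n + 1) → ℝ) =>
          (Fin.tail p.1, Fin.tail p.2) := by
        unfold Fin.tail
        fun_prop
      exact h1 (ih (i + 1) w)

omit [FiniteDimensional ℝ V] [DecidableEq S] in
theorem Run.measurableSet_lab [SecondCountableTopology V] {st : ℕ → S → V → ℝ → S}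
    (hst : ∀ i u v, MeasurableSet {p : V × ℝ | st i u p.1 p.2 = v}) (n i : ℕ) (u v : S)
    (s : V) : MeasurableSet {X : Fin n → V | run st n i X (lab X s) u = v} := by
  have h1 : Measurable fun X : Fin n → V => (X, lab X s) := by
    unfold lab
    fun_prop
  exact h1 (measurableSet_run hst n i u v)

/-- one-step recursion of the laws -/
theorem Run.law_succ {st : ℕ → S → V → ℝ → S}
    (hst : ∀ i u v, MeasurableSet {p : V × ℝ | st i u p.1 p.2 = v}) (n i : ℕ) (u v : S)
    (s : V) :
    (rows V (n + 1)).real {X | run st (n + 1) i X (lab X s) u = v} =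
      ∑ w, (stdGaussian V).real {x | st i u x ⟪x, s⟫ = w} *
        (rows V n).real {X | run st n (i + 1) X (lab X s) w = v} := by
  classical
  have : ProperSpace V := FiniteDimensional.proper_real V
  have : SecondCountableTopology V := inferInstance
  have hmp := measurePreserving_piFinSuccAbove (fun _ : Fin (n + 1) => stdGaussian V) 0
  have hA : ∀ w, MeasurableSet {x : V | st i u x ⟪x, s⟫ = w} := fun w => by
    have h1 : Measurable fun x : V => (x, ⟪x, s⟫) := by fun_prop
    exact h1 (hst i u w)
  have hB : ∀ w, MeasurableSet {X : Fin n → V | run st n (i + 1) X (lab X s) w = v} := fun w =>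
    Run.measurableSet_lab hst n (i + 1) w v s
  let T : Set (V × (Fin n → V)) := ⋃ w : S, {x : V | st i u x ⟪x, s⟫ = w} ×ˢ
    {X : Fin n → V | run st n (i + 1) X (lab X s) w = v}
  have hT : MeasurableSet T := MeasurableSet.iUnion fun w => (hA w).prod (hB w)
  have hpre : {X : Fin (n + 1) → V | run st (n + 1) i X (lab X s) u = v} =
      (MeasurableEquiv.piFinSuccAbove (fun _ => V) 0) ⁻¹' T := by
    ext X
    simp only [Set.mem_ofPred_eq, T, Set.mem_preimage, Set.mem_iUnion, Set.mem_prod]
    constructor
    · intro h
      exact ⟨_, rfl, h⟩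
    · rintro ⟨w, h1, h2⟩
      subst h1
      exact h2
  have hdisj : Pairwise (Function.onFun Disjoint fun w : S =>
      {x : V | st i u x ⟪x, s⟫ = w} ×ˢ
        {X : Fin n → V | run st n (i + 1) X (lab X s) w = v}) := by
    intro w w' hww'
    rw [Function.onFun, Set.disjoint_left]
    rintro ⟨x, X⟩ h1 h2
    exact hww' (h1.1.symm.trans h2.1)
  rw [hpre, measureReal_def, rows]
  rw [show (Measure.pi fun _ : Fin (n + 1) => stdGaussian V)
      ((MeasurableEquiv.piFinSuccAbove (fun _ => V) 0) ⁻¹' T) =
      ((stdGaussian V).prod (Measure.pi fun _ : Fin n => stdGaussian V)) T from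
      hmp.measure_preimage hT.nullMeasurableSet]
  rw [measure_iUnion hdisj (fun w => (hA w).prod (hB w)), tsum_fintype,
    ENNReal.toReal_sum (fun w _ => measure_ne_top _ _)]
  refine Finset.sum_congr rfl fun w _ => ?_
  rw [Measure.prod_prod, ENNReal.toReal_mul]
  rfl

omit [Fintype S] in
theorem Run.law_zero {st : ℕ → S → V → ℝ → S} (i : ℕ) (u v : S) (s : V) :
    (rows V 0).real {X | run st 0 i X (lab X s) u = v} = if u = v then 1 else 0 := by
  split_ifs with h
  · have : {X : Fin 0 → V | run st 0 i X (lab X s) u = v} = Set.univ := by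
      ext X
      simp only [Set.mem_ofPred_eq, Set.mem_univ, iff_true]
      exact h
    rw [this, rows]
    exact probReal_univ
  · have : {X : Fin 0 → V | run st 0 i X (lab X s) u = v} = ∅ := by
      ext X
      simp only [Set.mem_ofPred_eq, Set.mem_empty_iff_false, iff_false]
      exact h
    rw [this]
    simp

/-- semigroup property of the laws of the run -/
theorem run_add {st : ℕ → S → V → ℝ → S}
    (hst : ∀ i u v, MeasurableSet {p : V × ℝ | st i u p.1 p.2 = v}) (n m i : ℕ) (u v : S)
    (s : V) :
    (rows V (n + m)).real {X | run st (n + m) i X (lab X s) u = v} =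
      ∑ w, (rows V n).real {X | run st n i X (lab X s) u = w} *
        (rows V m).real {X | run st m (i + n) X (lab X s) w = v} := by
  -- the purely numerical law
  let P : ℕ → ℕ → S → S → ℝ := fun n i u v =>
    (rows V n).real {X | run st n i X (lab X s) u = v}
  let k : ℕ → S → S → ℝ := fun i u w => (stdGaussian V).real {x | st i u x ⟪x, s⟫ = w}
  have h0 : ∀ i u v, P 0 i u v = if u = v then 1 else 0 := fun i u v => Run.law_zero i u v s
  have h1 : ∀ n i u v, P (n + 1) i u v = ∑ w, k i u w * P n (i + 1) w v := fun n i u v =>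
    Run.law_succ hst n i u v s
  have key : ∀ n m i u v, P (n + m) i u v = ∑ w, P n i u w * P m (i + n) w v := by
    intro n
    induction n with
    | zero =>
      intro m i u v
      simp [h0]
    | succ n ih =>
      intro m i u v
      rw [Nat.succ_add n m, Nat.succ_eq_add_one, h1]
      simp only [h1 n i u, ih m (i + 1)]
      simp only [Finset.sum_mul, Finset.mul_sum]
      rw [Finset.sum_comm]
      refine Finset.sum_congr rfl fun w _ => Finset.sum_congr rfl fun w' _ => ?_
      rw [Nat.add_right_comm i 1 n, ← Nat.add_assoc i n 1, mul_assoc]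
  exact key n m i u v

end Run

end P309
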