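import Vale.Agent.P309.Setting
import Vale.Agent.P309.Run

/-!
# P309 : deterministic machines from learners
-/

namespace P309

open MeasureTheory ProbabilityTheory
open scoped ENNReal RealInnerProductSpace

section Play

variable {d : ℕ} {S Ω : Type*} [MeasurableSpace Ω] [Fintype S]

theorem Learner.measurable_play (A : Learner d S Ω) (n i : ℕ) (u : S) :
    Measurable (fun p : Ω × (Fin n → Eu d) × (Fin n → ℝ) => A.play p.1 n i p.2.1 p.2.2 u) := by
  classical
  induction n generalizing i u with
  | zero => exact (A.measurable_out i u).comp measurable_fst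
  | succ n ih =>
    have h0 : Measurable (fun p : Ω × (Fin (n + 1) → Eu d) × (Fin (n + 1) → ℝ) =>
        ((p.1, p.2.1 0, p.2.2 0) : Ω × Eu d × ℝ)) := by fun_prop
    have h1 : Measurable (fun p : Ω × (Fin (n + 1) → Eu d) × (Fin (n + 1) → ℝ) =>
        ((p.1, Fin.tail p.2.1, Fin.tail p.2.2) : Ω × (Fin n → Eu d) × (Fin n → ℝ))) := by
      unfold Fin.tail
      fun_prop
    intro B hB
    have h2 : (fun p : Ω × (Fin (n + 1) → Eu d) × (Fin (n + 1) → ℝ) =>
        A.play p.1 (n + 1) i p.2.1 p.2.2 u) ⁻¹' B =
        ⋃ w : S × Bool, ({p | A.step i p.1 u (p.2.1 0) (p.2.2 0) = w} ∩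
          {p | (if w.2 then A.out (i + 1) p.1 w.1 else
            A.play p.1 n (i + 1) (Fin.tail p.2.1) (Fin.tail p.2.2) w.1) ∈ B}) := by
      ext p
      simp only [Set.mem_preimage, Set.mem_iUnion, Set.mem_inter_iff, Set.mem_ofPred_eq,
        exists_eq_left']
      rfl
    rw [h2]
    refine MeasurableSet.iUnion fun w => (h0 (A.measurable_step i u w)).inter ?_
    by_cases hw : w.2
    · simp only [hw, if_true]
      exact ((A.measurable_out (i + 1) w.1).comp measurable_fst) hB
    · simp only [hw]
      exact ((ih (i + 1) w.1).comp h1) hB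

theorem Learner.measurable_estimate (A : Learner d S Ω) (T : ℕ) :
    Measurable (fun p : Ω × Metric.sphere (0 : Eu d) 1 × (Fin T → Eu d) =>
      A.estimate T p.1 p.2.2 p.2.1.1) := by
  intro B hB
  have h1 : Measurable (fun p : Ω × Metric.sphere (0 : Eu d) 1 × (Fin T → Eu d) =>
      ((p.1, p.2.2, fun t => ⟪p.2.2 t, p.2.1.1⟫) : Ω × (Fin T → Eu d) × (Fin T → ℝ))) := by
    refine measurable_fst.prodMk ((measurable_snd.comp measurable_snd).prodMk ?_)
    rw [measurable_pi_iff]
    intro t
    exact ((measurable_pi_apply t).comp (measurable_snd.comp measurable_snd)).inner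
      (measurable_subtype_coe.comp (measurable_fst.comp measurable_snd))
  have h2 : (fun p : Ω × Metric.sphere (0 : Eu d) 1 × (Fin T → Eu d) =>
      A.estimate T p.1 p.2.2 p.2.1.1) ⁻¹' B =
      ⋃ u : S, ({p | A.init p.1 = u} ∩
        {p | A.play p.1 T 0 p.2.2 (fun t => ⟪p.2.2 t, p.2.1.1⟫) u ∈ B}) := by
    ext p
    simp only [Set.mem_preimage, Set.mem_iUnion, Set.mem_inter_iff, Set.mem_ofPred_eq,
      exists_eq_left']
    rfl
  rw [h2]
  refine MeasurableSet.iUnion fun u => (measurable_fst (A.measurable_init u)).inter ?_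
  exact ((A.measurable_play T 0 u).comp h1) hB

end Play

section Machine

variable {d : ℕ} {S Ω : Type*} [MeasurableSpace Ω]

/-- states of the machine: active states and stopped states with the stopping index -/
abbrev MS (S : Type*) (T : ℕ) := S ⊕ (Fin (T + 1) × S)

/-- the deterministic machine belonging to a learner and a value of its randomness -/
def mach (A : Learner d S Ω) (ω : Ω) (T : ℕ) (i : ℕ) : MS S T → Eu d → ℝ → MS S T
  | .inl u, x, y =>
    if i < T then
      (if (A.step i ω u x y).2 then .inr (Fin.ofNat (T + 1) (i + 1), (A.step i ω u x y).1)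
        else .inl (A.step i ω u x y).1)
    else .inl u
  | .inr p, _, _ => .inr p

/-- its output -/
def machOut (A : Learner d S Ω) (ω : Ω) (T : ℕ) : MS S T → Eu d
  | .inl u => (A.out T ω u).1
  | .inr p => (A.out p.1 ω p.2).1

variable {A : Learner d S Ω} {ω : Ω} {T : ℕ}

theorem run_inr (n i : ℕ) (X : Fin n → Eu d) (y : Fin n → ℝ) (p : Fin (T + 1) × S) :
    run (mach A ω T) n i X y (.inr p) = .inr p := by
  induction n generalizing i with
  | zero => rfl
  | succ n ih =>
    rw [run]
    exact ih _ _ _

theorem run_ge (n i : ℕ) (hi : T ≤ i) (X : Fin n → Eu d) (y : Fin n → ℝ) (u : MS S T) :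
    run (mach A ω T) n i X y u = u := by
  cases u with
  | inr p => exact run_inr n i X y p
  | inl u =>
    induction n generalizing i with
    | zero => rfl
    | succ n ih =>
      rw [run]
      have h : mach A ω T i (.inl u) (X 0) (y 0) = .inl u := by
        simp [mach, not_lt.mpr hi]
      rw [h]
      exact ih _ (by omega) _ _

theorem machOut_run (n i : ℕ) (hi : i + n = T) (X : Fin n → Eu d) (y : Fin n → ℝ) (u : S) :
    machOut A ω T (run (mach A ω T) n i X y (.inl u)) = (A.play ω n i X y u).1 := by
  induction n generalizing i u with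
  | zero =>
    simp only [add_zero] at hi
    subst hi
    rfl
  | succ n ih =>
    rw [run, Learner.play]
    have hiT : i < T := by omega
    simp only [mach, if_pos hiT]
    split_ifs with h
    · rw [run_inr]
      simp only [machOut]
      congr 2
      rw [Fin.val_ofNat, Nat.mod_eq_of_lt (by omega)]
    · exact ih (i + 1) (by omega) _ _ _

/-- the states reachable in `n` steps -/
theorem reach (n i : ℕ) (X : Fin n → Eu d) (y : Fin n → ℝ) (u : S) :
    (∃ w, run (mach A ω T) n i X y (.inl u) = .inl w) ∨
      ∃ j < n, ∃ w, run (mach A ω T) n i X y (.inl u) =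
        .inr (Fin.ofNat (T + 1) (i + 1 + j), w) := by
  induction n generalizing i u with
  | zero => exact Or.inl ⟨u, rfl⟩
  | succ n ih =>
    rw [run]
    simp only [mach]
    split_ifs with h1 h2
    · right
      refine ⟨0, by omega, (A.step i ω u (X 0) (y 0)).1, ?_⟩
      rw [run_inr, add_zero]
    · rcases ih (i + 1) (Fin.tail X) (Fin.tail y) (A.step i ω u (X 0) (y 0)).1 with h | h
      · exact Or.inl h
      · obtain ⟨j, hj, w, hw⟩ := h
        refine Or.inr ⟨j + 1, by omega, w, ?_⟩
        rw [hw, show i + 1 + 1 + j = i + 1 + (j + 1) by ring]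
    · rcases ih (i + 1) (Fin.tail X) (Fin.tail y) u with h | h
      · exact Or.inl h
      · obtain ⟨j, hj, w, hw⟩ := h
        refine Or.inr ⟨j + 1, by omega, w, ?_⟩
        rw [hw, show i + 1 + 1 + j = i + 1 + (j + 1) by ring]

open Classical in
theorem reach_card [Fintype S] (q i : ℕ) (u : MS S T) (s : Finset (MS S T))
    (hs : ∀ v ∈ s, ∃ p : (Fin q → Eu d) × (Fin q → ℝ), run (mach A ω T) q i p.1 p.2 u = v) :
    s.card ≤ (q + 1) * Fintype.card S := by
  cases u with
  | inr p =>
    have h1 : s ⊆ {.inr p} := by
      intro v hv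
      obtain ⟨x, hx⟩ := hs v hv
      rw [run_inr] at hx
      simp [← hx]
    have h2 := Finset.card_le_card h1
    rw [Finset.card_singleton] at h2
    have h3 : 1 ≤ Fintype.card S := Fintype.card_pos_iff.mpr ⟨p.2⟩
    nlinarith
  | inl u =>
    set ψ : ℕ × S → MS S T := fun x =>
      if x.1 = 0 then .inl x.2 else .inr (Fin.ofNat (T + 1) (i + x.1), x.2) with hψ
    have h1 : s ⊆ (Finset.range (q + 1) ×ˢ Finset.univ).image ψ := by
      intro v hv
      obtain ⟨x, hx⟩ := hs v hv
      rw [Finset.mem_image]
      rcases reach (A := A) (ω := ω) (T := T) q i x.1 x.2 u with ⟨w, hw⟩ | ⟨j, hj, w, hw⟩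
      · refine ⟨(0, w), by simp, ?_⟩
        rw [hψ, ← hx, hw]; simp
      · refine ⟨(j + 1, w), by simp; omega, ?_⟩
        rw [hψ, ← hx, hw]
        simp only [Nat.add_eq_zero_iff, one_ne_zero, and_false, if_false]
        rw [show i + (j + 1) = i + 1 + j by ring]
    refine (Finset.card_le_card h1).trans (Finset.card_image_le.trans ?_)
    rw [Finset.card_product, Finset.card_range, Finset.card_univ]

theorem measurable_mach [Fintype S] (i : ℕ) (u v : MS S T) :
    MeasurableSet {p : Eu d × ℝ | mach A ω T i u p.1 p.2 = v} := by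
  cases u with
  | inr p => exact MeasurableSet.const ((Sum.inr p : MS S T) = v)
  | inl u =>
    by_cases hi : i < T
    · have h1 : ∀ w : S × Bool, MeasurableSet {p : Eu d × ℝ | A.step i ω u p.1 p.2 = w} := by
        intro w
        have h2 : Measurable (fun p : Eu d × ℝ => (ω, p.1, p.2)) := by fun_prop
        exact h2 (A.measurable_step i u w)
      have h3 : {p : Eu d × ℝ | mach A ω T i (.inl u) p.1 p.2 = v} =
          ⋃ w : S × Bool, ({p | A.step i ω u p.1 p.2 = w} ∩
            {_p | (if w.2 then .inr (Fin.ofNat (T + 1) (i + 1), w.1) else .inl w.1 : MS S T) =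
              v}) := by
        ext p
        simp only [Set.mem_iUnion, Set.mem_inter_iff, Set.mem_ofPred_eq, exists_eq_left', mach,
          if_pos hi]
      rw [h3]
      exact MeasurableSet.iUnion fun w => (h1 w).inter (MeasurableSet.const _)
    · simp only [mach, if_neg hi]
      exact MeasurableSet.const _

/-- padding with idle steps -/
theorem pad [Fintype S] (m : ℕ) (u : MS S T) (s : Eu d) (B : Set (MS S T)) :
    rows (Eu d) T {X | run (mach A ω T) T 0 X (lab X s) u ∈ B} ≤
      rows (Eu d) (T + m) {X | run (mach A ω T) (T + m) 0 X (lab X s) u ∈ B} := by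
  classical
  have hst := fun i u v => measurable_mach (A := A) (ω := ω) (T := T) i u v
  have key : ∀ v, (rows (Eu d) T).real {X | run (mach A ω T) T 0 X (lab X s) u = v} ≤
      (rows (Eu d) (T + m)).real {X | run (mach A ω T) (T + m) 0 X (lab X s) u = v} := by
    intro v
    rw [run_add hst T m 0 u v s]
    have h1 : (rows (Eu d) m).real {X | run (mach A ω T) m (0 + T) X (lab X s) v = v} = 1 := by
      have h2 : {X : Fin m → Eu d | run (mach A ω T) m (0 + T) X (lab X s) v = v} =
          Set.univ := by
        ext X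
        simp only [Set.mem_ofPred_eq, Set.mem_univ, iff_true]
        exact run_ge _ _ (by omega) _ _ _
      rw [h2]
      unfold rows
      simp
    have h3 := Finset.single_le_sum
      (f := fun w => (rows (Eu d) T).real {X | run (mach A ω T) T 0 X (lab X s) u = w} *
        (rows (Eu d) m).real {X | run (mach A ω T) m (0 + T) X (lab X s) w = v})
      (fun w _ => mul_nonneg measureReal_nonneg measureReal_nonneg) (Finset.mem_univ v)
    simp only [h1, mul_one] at h3
    exact h3
  have hsum : ∀ n, rows (Eu d) n {X | run (mach A ω T) n 0 X (lab X s) u ∈ B} =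
      ∑ v, if v ∈ B then rows (Eu d) n {X | run (mach A ω T) n 0 X (lab X s) u = v} else 0 := by
    intro n
    have h1 : {X : Fin n → Eu d | run (mach A ω T) n 0 X (lab X s) u ∈ B} =
        ⋃ v ∈ (Finset.univ.filter fun v => v ∈ B),
          {X | run (mach A ω T) n 0 X (lab X s) u = v} := by
      ext X
      simp
    rw [h1, measure_biUnion_finset, Finset.sum_filter]
    · intro v _ w _ hvw
      rw [Function.onFun, Set.disjoint_left]
      intro X h1 h2
      exact hvw (h1.symm.trans h2)
    · intro v _
      exact Run.measurableSet_lab hst n 0 u v s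
  rw [hsum, hsum]
  refine Finset.sum_le_sum fun v _ => ?_
  split_ifs
  · have h1 : ∀ n, IsProbabilityMeasure (rows (Eu d) n) := by
      intro n; unfold rows; infer_instance
    have h2 := key v
    rw [Measure.real, Measure.real, ENNReal.toReal_le_toReal (measure_ne_top _ _)
      (measure_ne_top _ _)] at h2
    exact h2
  · exact le_rfl

end Machine

end P309
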