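import Mathlib

/-!
# P309 : the final arithmetic
-/

namespace P309

open Real

theorem numbers {d q P L M T : ℕ} (hd : 1000 ≤ d) (hq : q = d / 4) (hP : q * P < T + q)
    (hL : 1 ≤ L)
    (hA : 2 / 3 * (L * (q * Real.log 2)) ≤
      d + 2 + P * (4010 * d + Real.log L + 2 / q * Real.log (((q + 1) * 2 ^ M : ℕ) : ℝ)))
    (hB : 2 / 3 * (L * (q * Real.log 2)) ≤
      d + 4 + Real.log (((T + 2) * 2 ^ M : ℕ) : ℝ)) :
    (1 / 1000000 : ℝ) * d ^ 3 * L ≤ (T + d) * (d ^ 2 + M) := by
  by_contra hcon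
  push Not at hcon
  have hdR : (1000 : ℝ) ≤ d := by exact_mod_cast hd
  have hd0 : (0 : ℝ) < d := by linarith
  have hLR : (1 : ℝ) ≤ L := by exact_mod_cast hL
  have hMR : (0 : ℝ) ≤ M := Nat.cast_nonneg M
  have hTR : (0 : ℝ) ≤ T := Nat.cast_nonneg T
  have hPR : (0 : ℝ) ≤ P := Nat.cast_nonneg P
  have hq8 : d ≤ 8 * q := by omega
  have hq4 : 4 * q ≤ d := by omega
  have hq8R : (d : ℝ) ≤ 8 * q := by exact_mod_cast hq8
  have hq4R : 4 * (q : ℝ) ≤ d := by exact_mod_cast hq4
  have hq0 : (0 : ℝ) < q := by linarith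
  have hPR' : (q : ℝ) * P ≤ T + q := by exact_mod_cast hP.le
  have hl2 := Real.log_two_gt_d9
  have hl2' := Real.log_two_lt_d9
  -- logarithms
  have hlogQ : Real.log (((q + 1) * 2 ^ M : ℕ) : ℝ) ≤ q + M := by
    push_cast
    rw [Real.log_mul (by positivity) (by positivity), Real.log_pow]
    have h1 : Real.log ((q : ℝ) + 1) ≤ q := by
      have := Real.log_le_sub_one_of_pos (show (0 : ℝ) < (q : ℝ) + 1 by positivity)
      linarith
    have h2 : (M : ℝ) * Real.log 2 ≤ M * 1 := mul_le_mul_of_nonneg_left (by linarith) hMR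
    linarith
  have hlogS : Real.log (((T + 2) * 2 ^ M : ℕ) : ℝ) ≤ Real.log (T + 2) + M := by
    push_cast
    rw [Real.log_mul (by positivity) (by positivity), Real.log_pow]
    have h2 : (M : ℝ) * Real.log 2 ≤ M * 1 := mul_le_mul_of_nonneg_left (by linarith) hMR
    linarith
  -- crude bound for T
  have hT : (T : ℝ) + d < d * L := by
    have h1 : ((T : ℝ) + d) * d ^ 2 ≤ (T + d) * (d ^ 2 + M) := by
      apply mul_le_mul_of_nonneg_left _ (by positivity)
      linarith
    have h2 : ((T : ℝ) + d) * d ^ 2 < (1 / 1000000 * (d * L)) * d ^ 2 := by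
      calc ((T : ℝ) + d) * d ^ 2 < (1 / 1000000 : ℝ) * d ^ 3 * L := lt_of_le_of_lt h1 hcon
        _ = (1 / 1000000 * (d * L)) * d ^ 2 := by ring
    have h3 := lt_of_mul_lt_mul_right h2 (by positivity)
    have h4 : 0 < (d : ℝ) * L := by positivity
    linarith
  have hlogT : Real.log ((T : ℝ) + 2) ≤ d + L := by
    have h1 : Real.log ((T : ℝ) + 2) ≤ Real.log (d * L) :=
      Real.log_le_log (by positivity) (by linarith)
    rw [Real.log_mul hd0.ne' (by positivity)] at h1
    have h2 := Real.log_le_sub_one_of_pos hd0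
    have h3 := Real.log_le_sub_one_of_pos (show (0 : ℝ) < L by positivity)
    linarith
  have hlow : (57 / 1000 : ℝ) * (d * L) ≤ 2 / 3 * (L * (q * Real.log 2)) := by
    have h1 : (d : ℝ) * L ≤ 8 * (q * L) := by
      have := mul_le_mul_of_nonneg_right hq8R (show (0 : ℝ) ≤ L by positivity)
      linarith
    have h2 : (q : ℝ) * L * 0.6931471803 ≤ q * L * Real.log 2 :=
      mul_le_mul_of_nonneg_left hl2.le (by positivity)
    have h3 : (L : ℝ) * (q * Real.log 2) = q * L * Real.log 2 := by ring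
    rw [h3]
    have h4 : (0 : ℝ) ≤ q * L := by positivity
    linarith
  have hL1 : (56 / 1000 : ℝ) * (d * L) ≤ 3 * d + M := by
    have h1 : (L : ℝ) ≤ 1 / 1000 * (d * L) := by
      have := mul_le_mul_of_nonneg_right hdR (show (0 : ℝ) ≤ L by positivity)
      linarith
    linarith
  have hL2 : (L : ℝ) ≤ 60 * (1 + M / d) := by
    have h1 : (60 : ℝ) * (1 + M / d) = 60 * (d + M) / d := by field_simp
    rw [h1, le_div_iff₀ hd0, mul_comm (L : ℝ) d]
    linarith
  have hlogL : Real.log L ≤ 5 + M / d := by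
    have hMd : (0 : ℝ) ≤ M / d := by positivity
    have h1 : Real.log L ≤ Real.log (60 * (1 + M / d)) := Real.log_le_log (by positivity) hL2
    rw [Real.log_mul (by norm_num) (by positivity)] at h1
    have h2 : Real.log (1 + (M : ℝ) / d) ≤ M / d := by
      have := Real.log_le_sub_one_of_pos (show (0 : ℝ) < 1 + (M : ℝ) / d by positivity)
      linarith
    have h3 : Real.log 60 ≤ 5 := by
      have h4 : Real.log 60 ≤ Real.log (2 ^ 6) := Real.log_le_log (by norm_num) (by norm_num)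
      rw [Real.log_pow] at h4
      push_cast at h4
      linarith
    linarith
  have hQ2 : 2 / (q : ℝ) * Real.log (((q + 1) * 2 ^ M : ℕ) : ℝ) ≤ 2 + 16 * (M / d) := by
    have h1 : 2 / (q : ℝ) * Real.log (((q + 1) * 2 ^ M : ℕ) : ℝ) ≤ 2 / q * (q + M) :=
      mul_le_mul_of_nonneg_left hlogQ (by positivity)
    refine h1.trans ?_
    have h2 : 2 / (q : ℝ) * (q + M) = 2 + 2 * M / q := by field_simp
    rw [h2]
    have h3 : 2 * (M : ℝ) / q ≤ 16 * (M / d) := by
      rw [show 16 * ((M : ℝ) / d) = 16 * M / d by ring, div_le_div_iff₀ hq0 hd0]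
      have := mul_le_mul_of_nonneg_left hq8R (show (0 : ℝ) ≤ 2 * M by positivity)
      linarith
    linarith
  have hMd : (0 : ℝ) ≤ M / d := by positivity
  set W : ℝ := d + M / d with hW
  have hW1 : (4010 * d + Real.log L + 2 / q * Real.log (((q + 1) * 2 ^ M : ℕ) : ℝ)) ≤
      4011 * W := by
    rw [hW]; linarith
  have hW2 : (d : ℝ) + 2 ≤ 4011 * W := by rw [hW]; linarith
  have hA2 : (57 / 1000 : ℝ) * (d * L) ≤ (P + 1) * (4011 * W) := by
    have h1 := mul_le_mul_of_nonneg_left hW1 hPR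
    linarith
  have hP2 : ((P : ℝ) + 1) * d ≤ 8 * (T + 2 * q) := by
    have h1 : (P : ℝ) * d ≤ 8 * (q * P) := by
      have := mul_le_mul_of_nonneg_left hq8R hPR
      linarith
    linarith
  have hP3 : ((P : ℝ) + 1) * d ≤ 8 * (T + d) := by linarith
  have hW3 : W * d = d ^ 2 + M := by rw [hW]; field_simp
  have hfin : (57 / 1000 : ℝ) * (d * L) * d ^ 2 ≤ 8 * (T + d) * (4011 * (d ^ 2 + M)) := by
    calc (57 / 1000 : ℝ) * (d * L) * d ^ 2 ≤ ((P + 1) * (4011 * W)) * d ^ 2 :=
          mul_le_mul_of_nonneg_right hA2 (by positivity)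
      _ = (((P : ℝ) + 1) * d) * (4011 * (W * d)) := by ring
      _ ≤ (8 * (T + d)) * (4011 * (W * d)) := by
          apply mul_le_mul_of_nonneg_right hP3
          rw [hW3]; positivity
      _ = _ := by rw [hW3]
  have h9 : (0 : ℝ) ≤ (T + d) * (d ^ 2 + M) := by positivity
  have h10 : (57 / 1000 : ℝ) * (d * L) * d ^ 2 = 57 * (1000 * ((1 / 1000000 : ℝ) * d ^ 3 * L)) := by
    ring
  have h11 : 8 * ((T : ℝ) + d) * (4011 * (d ^ 2 + M)) = 32088 * ((T + d) * (d ^ 2 + M)) := by
    ring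
  rw [h10, h11] at hfin
  linarith

end P309
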