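import Vale.Agent.P309.Defs

/-!
# P309 : module OpNorm (operator norm of the rows)
-/

namespace P309

open MeasureTheory ProbabilityTheory
open scoped ENNReal RealInnerProductSpace

variable {V : Type*} [NormedAddCommGroup V] [InnerProductSpace ℝ V] [FiniteDimensional ℝ V]
  [MeasurableSpace V] [BorelSpace V]

theorem measurableSet_goodX (n : ℕ) : MeasurableSet (goodX n V) := by
  have : ProperSpace V := FiniteDimensional.proper_real V
  have : SecondCountableTopology V := inferInstance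
  apply IsClosed.measurableSet
  have h : goodX n V = ⋂ D : V, {X : Fin n → V | ∑ i, ⟪X i, D⟫ ^ 2 ≤
      64 * (Module.finrank ℝ V : ℝ) * ‖D‖ ^ 2} := by
    ext X
    simp [goodX]
  rw [h]
  refine isClosed_iInter fun D => ?_
  refine isClosed_le ?_ continuous_const
  fun_prop

/-- exponential moment of the square of a standard gaussian -/
theorem OpNorm.lint_gauss :
    ∫⁻ y : ℝ, ENNReal.ofReal (Real.exp (y ^ 2 / 4)) ∂(gaussianReal 0 1) =
      ENNReal.ofReal (√2) := by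
  rw [gaussianReal_of_var_ne_zero 0 one_ne_zero,
    lintegral_withDensity_eq_lintegral_mul _ (measurable_gaussianPDF 0 1) (by fun_prop)]
  have h1 : ∀ y : ℝ, ((gaussianPDF 0 1) * fun y : ℝ => ENNReal.ofReal (Real.exp (y ^ 2 / 4))) y =
      ENNReal.ofReal ((√(2 * Real.pi))⁻¹ * Real.exp (-(1 / 4) * y ^ 2)) := by
    intro y
    simp only [Pi.mul_apply, gaussianPDF, gaussianPDFReal]
    rw [← ENNReal.ofReal_mul (by positivity)]
    congr 1
    simp only [NNReal.coe_one, mul_one, sub_zero]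
    rw [mul_assoc, ← Real.exp_add]
    congr 2
    ring
  rw [lintegral_congr h1, ← ofReal_integral_eq_lintegral_ofReal]
  · rw [integral_const_mul, integral_gaussian]
    congr 1
    rw [← Real.sqrt_inv, ← Real.sqrt_mul (by positivity)]
    congr 1
    have := Real.pi_ne_zero
    field_simp
    norm_num
  · exact (integrable_exp_neg_mul_sq (by norm_num)).const_mul _
  · exact Filter.Eventually.of_forall fun y => by positivity

/-- exponential moment of a linear functional -/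
theorem OpNorm.lint_inner {c : V} (hc : ‖c‖ ≤ 2) :
    ∫⁻ x : V, ENNReal.ofReal (Real.exp (⟪x, c⟫ ^ 2 / 16)) ∂(stdGaussian V) ≤
      ENNReal.ofReal (√2) := by
  have h1 : (1 : ℝ≥0∞) ≤ ENNReal.ofReal (√2) := by
    rw [← ENNReal.ofReal_one]
    exact ENNReal.ofReal_le_ofReal (Real.one_le_sqrt.2 (by norm_num))
  rcases eq_or_ne c 0 with h0 | h0
  · subst h0
    simp
  · have hn : 0 < ‖c‖ := norm_pos_iff.2 h0
    set u : V := ‖c‖⁻¹ • c with hu
    have hu1 : ‖u‖ = 1 := by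
      rw [hu, norm_smul, norm_inv, norm_norm, inv_mul_cancel₀ hn.ne']
    have hcu : c = ‖c‖ • u := by
      rw [hu, smul_smul, mul_inv_cancel₀ hn.ne', one_smul]
    have h2 : ∀ x : V, ⟪x, c⟫ ^ 2 / 16 ≤ ((innerSL ℝ u) x) ^ 2 / 4 := by
      intro x
      have h3 : ⟪x, c⟫ = ‖c‖ * (innerSL ℝ u) x := by
        conv_lhs => rw [hcu]
        rw [inner_smul_right, innerSL_apply_apply, real_inner_comm]
      rw [h3, mul_pow]
      have h4 : ‖c‖ ^ 2 ≤ 4 := by nlinarith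
      have h5 : 0 ≤ ((innerSL ℝ u) x) ^ 2 := sq_nonneg _
      nlinarith [mul_le_mul_of_nonneg_right h4 h5]
    calc ∫⁻ x : V, ENNReal.ofReal (Real.exp (⟪x, c⟫ ^ 2 / 16)) ∂(stdGaussian V)
        ≤ ∫⁻ x : V, ENNReal.ofReal (Real.exp (((innerSL ℝ u) x) ^ 2 / 4)) ∂(stdGaussian V) :=
          lintegral_mono fun x => ENNReal.ofReal_le_ofReal (Real.exp_le_exp.2 (h2 x))
      _ = ∫⁻ y : ℝ, ENNReal.ofReal (Real.exp (y ^ 2 / 4))
            ∂((stdGaussian V).map (innerSL ℝ u)) := by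
          rw [lintegral_map (by fun_prop) (by fun_prop)]
      _ = ∫⁻ y : ℝ, ENNReal.ofReal (Real.exp (y ^ 2 / 4)) ∂(gaussianReal 0 1) := by
          rw [IsGaussian.map_eq_gaussianReal, integral_strongDual_stdGaussian,
            variance_dual_stdGaussian, innerSL_apply_norm, hu1]
          simp
      _ = ENNReal.ofReal (√2) := OpNorm.lint_gauss
      _ ≤ _ := le_rfl

/-- tail bound for one direction -/
theorem OpNorm.tail {n : ℕ} {c : V} (hc : ‖c‖ ≤ 2) :
    rows V n {X | 64 * (Module.finrank ℝ V : ℝ) < ∑ i, ⟪X i, c⟫ ^ 2} ≤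
      ENNReal.ofReal (√2 ^ n * Real.exp (-4 * Module.finrank ℝ V)) := by
  set d : ℝ := (Module.finrank ℝ V : ℝ) with hd
  have : ProperSpace V := FiniteDimensional.proper_real V
  have : SecondCountableTopology V := inferInstance
  set F : (Fin n → V) → ℝ≥0∞ := fun X =>
    ∏ i, ENNReal.ofReal (Real.exp (⟪X i, c⟫ ^ 2 / 16)) with hF
  have hmeas : Measurable fun x : V => ENNReal.ofReal (Real.exp (⟪x, c⟫ ^ 2 / 16)) := by
    fun_prop
  have hFm : Measurable F := by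
    apply Finset.measurable_prod
    intro i _
    exact hmeas.comp (measurable_pi_apply i)
  have hFX : ∀ X, F X = ENNReal.ofReal (Real.exp ((∑ i, ⟪X i, c⟫ ^ 2) / 16)) := by
    intro X
    rw [hF]
    simp only
    rw [← ENNReal.ofReal_prod_of_nonneg (fun i _ => (Real.exp_pos _).le), ← Real.exp_sum,
      Finset.sum_div]
  have hind : iIndepFun (fun (i : Fin n) (X : Fin n → V) =>
      ENNReal.ofReal (Real.exp (⟪X i, c⟫ ^ 2 / 16))) (rows V n) :=
    iIndepFun_pi (X := fun _ x => ENNReal.ofReal (Real.exp (⟪x, c⟫ ^ 2 / 16)))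
      (fun _ => hmeas.aemeasurable)
  have hint : ∫⁻ X, F X ∂(rows V n) ≤ ENNReal.ofReal (√2) ^ n := by
    rw [hF, lintegral_prod_eq_prod_lintegral_of_indepFun _ _ hind
      (fun i => hmeas.comp (measurable_pi_apply i))]
    calc ∏ i : Fin n, ∫⁻ X, ENNReal.ofReal (Real.exp (⟪X i, c⟫ ^ 2 / 16)) ∂(rows V n)
        ≤ ∏ _i : Fin n, ENNReal.ofReal (√2) := by
          refine Finset.prod_le_prod' fun i _ => ?_
          have := (measurePreserving_eval (fun _ : Fin n => stdGaussian V) i).lintegral_comp hmeas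
          rw [rows]
          rw [show (∫⁻ X : Fin n → V, ENNReal.ofReal (Real.exp (⟪X i, c⟫ ^ 2 / 16))
            ∂(Measure.pi fun _ => stdGaussian V)) =
            ∫⁻ x : V, ENNReal.ofReal (Real.exp (⟪x, c⟫ ^ 2 / 16)) ∂(stdGaussian V) from this]
          exact OpNorm.lint_inner hc
      _ = ENNReal.ofReal (√2) ^ n := by simp
  have hmk := mul_meas_ge_le_lintegral (μ := rows V n) hFm (ENNReal.ofReal (Real.exp (4 * d)))
  have hsub : {X : Fin n → V | 64 * d < ∑ i, ⟪X i, c⟫ ^ 2} ⊆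
      {X | ENNReal.ofReal (Real.exp (4 * d)) ≤ F X} := by
    intro X hX
    simp only [Set.mem_ofPred_eq] at hX ⊢
    rw [hFX]
    refine ENNReal.ofReal_le_ofReal (Real.exp_le_exp.2 ?_)
    linarith
  have h1 : ENNReal.ofReal (Real.exp (4 * d)) * rows V n {X | 64 * d < ∑ i, ⟪X i, c⟫ ^ 2} ≤
      ENNReal.ofReal (√2) ^ n :=
    (mul_le_mul_right (measure_mono hsub) _).trans (hmk.trans hint)
  have h2 : ENNReal.ofReal (Real.exp (-4 * d)) * ENNReal.ofReal (Real.exp (4 * d)) = 1 := by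
    rw [← ENNReal.ofReal_mul (Real.exp_pos _).le, ← Real.exp_add]
    simp
  calc rows V n {X | 64 * d < ∑ i, ⟪X i, c⟫ ^ 2}
      = ENNReal.ofReal (Real.exp (-4 * d)) * (ENNReal.ofReal (Real.exp (4 * d)) *
        rows V n {X | 64 * d < ∑ i, ⟪X i, c⟫ ^ 2}) := by
        rw [← mul_assoc, h2, one_mul]
    _ ≤ ENNReal.ofReal (Real.exp (-4 * d)) * ENNReal.ofReal (√2) ^ n :=
        mul_le_mul_right h1 _
    _ = ENNReal.ofReal (√2 ^ n * Real.exp (-4 * d)) := by
        rw [← ENNReal.ofReal_pow (Real.sqrt_nonneg _), ← ENNReal.ofReal_mul (Real.exp_pos _).le,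
          mul_comm]

omit [MeasurableSpace V] [BorelSpace V] in
/-- a finite net of the ball of radius two -/
theorem OpNorm.net : ∃ s : Finset V, s.card ≤ 5 ^ Module.finrank ℝ V ∧ (∀ c ∈ s, ‖c‖ ≤ 2) ∧
    ∀ D : V, ‖D‖ ≤ 2 → ∃ c ∈ s, ‖D - c‖ ≤ 1 := by
  classical
  let P : ℕ → Prop := fun m => ∃ s : Finset V, s.card = m ∧ (∀ c ∈ s, ‖c‖ ≤ 2) ∧
    ∀ c ∈ s, ∀ d ∈ s, c ≠ d → 1 ≤ ‖c - d‖
  have hP0 : P 0 := ⟨∅, by simp, by simp, by simp⟩
  have hPb : ∀ m, P m → m ≤ 5 ^ Module.finrank ℝ V := by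
    rintro m ⟨s, rfl, hs, hsep⟩
    exact Besicovitch.card_le_of_separated s hs hsep
  have hg : P (Nat.findGreatest P (5 ^ Module.finrank ℝ V)) :=
    Nat.findGreatest_spec (Nat.zero_le _) hP0
  obtain ⟨s, hcard, hs, hsep⟩ := hg
  refine ⟨s, Besicovitch.card_le_of_separated s hs hsep, hs, ?_⟩
  intro D hD
  by_contra hcon
  push Not at hcon
  have hDs : D ∉ s := by
    intro hmem
    have := hcon D hmem
    simp at this
    linarith
  have hP1 : P (s.card + 1) := by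
    refine ⟨insert D s, Finset.card_insert_of_notMem hDs, ?_, ?_⟩
    · intro c hc
      rcases Finset.mem_insert.1 hc with rfl | hc
      · exact hD
      · exact hs c hc
    · intro c hc e he hne
      rcases Finset.mem_insert.1 hc with hc1 | hc1
      · rcases Finset.mem_insert.1 he with he1 | he1
        · exact absurd (hc1.trans he1.symm) hne
        · rw [hc1]
          exact (hcon e he1).le
      · rcases Finset.mem_insert.1 he with he1 | he1
        · rw [he1, norm_sub_rev]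
          exact (hcon c hc1).le
        · exact hsep c hc1 e he1 hne
  have := Nat.le_findGreatest (hPb _ hP1) hP1
  omega

omit [FiniteDimensional ℝ V] [MeasurableSpace V] [BorelSpace V] in
/-- from the net to all vectors -/
theorem OpNorm.of_net {n : ℕ} {s : Finset V} (hnet : ∀ D : V, ‖D‖ ≤ 2 → ∃ c ∈ s, ‖D - c‖ ≤ 1)
    {X : Fin n → V} {d : ℝ} (hd : 0 ≤ d) (hX : ∀ c ∈ s, ∑ i, ⟪X i, c⟫ ^ 2 ≤ 64 * d) (D : V) :
    ∑ i, ⟪X i, D⟫ ^ 2 ≤ 64 * d * ‖D‖ ^ 2 := by
  -- the linear map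
  let A : V →L[ℝ] EuclideanSpace ℝ (Fin n) :=
    (EuclideanSpace.equiv (Fin n) ℝ).symm.toContinuousLinearMap ∘L
      (ContinuousLinearMap.pi fun i => innerSL ℝ (X i))
  have hA : ∀ D : V, ‖A D‖ ^ 2 = ∑ i, ⟪X i, D⟫ ^ 2 := by
    intro D
    rw [EuclideanSpace.real_norm_sq_eq]
    rfl
  have h8 : ∀ c ∈ s, ‖A c‖ ≤ 8 * √d := by
    intro c hc
    have h1 : ‖A c‖ ^ 2 ≤ (8 * √d) ^ 2 := by
      rw [hA, mul_pow, Real.sq_sqrt hd]
      have := hX c hc
      linarith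
    exact (pow_le_pow_iff_left₀ (norm_nonneg _) (by positivity) two_ne_zero).1 h1
  have h2 : ∀ D : V, ‖D‖ ≤ 2 → ‖A D‖ ≤ 8 * √d + ‖A‖ := by
    intro D hD
    obtain ⟨c, hc, hDc⟩ := hnet D hD
    calc ‖A D‖ = ‖A c + A (D - c)‖ := by rw [← map_add]; congr 2; abel
      _ ≤ ‖A c‖ + ‖A (D - c)‖ := norm_add_le _ _
      _ ≤ 8 * √d + ‖A‖ * ‖D - c‖ := add_le_add (h8 c hc) (A.le_opNorm _)
      _ ≤ 8 * √d + ‖A‖ * 1 := by gcongr
      _ = _ := by ring
  have h3 : ‖A‖ ≤ (8 * √d + ‖A‖) / 2 := by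
    refine A.opNorm_le_bound (by positivity) fun D => ?_
    rcases eq_or_ne D 0 with h0 | h0
    · simp [h0]
    · have hn : 0 < ‖D‖ := norm_pos_iff.2 h0
      have h4 := h2 ((2 / ‖D‖) • D) (by
        rw [norm_smul, Real.norm_of_nonneg (by positivity)]
        rw [div_mul_cancel₀ _ hn.ne'])
      rw [map_smul, norm_smul, Real.norm_of_nonneg (by positivity)] at h4
      rw [div_mul_eq_mul_div, div_le_iff₀ hn] at h4
      linarith
  have h4 : ‖A‖ ≤ 8 * √d := by linarith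
  have h5 : ‖A D‖ ≤ 8 * √d * ‖D‖ :=
    (A.le_opNorm D).trans (mul_le_mul_of_nonneg_right h4 (norm_nonneg _))
  calc ∑ i, ⟪X i, D⟫ ^ 2 = ‖A D‖ ^ 2 := (hA D).symm
    _ ≤ (8 * √d * ‖D‖) ^ 2 := pow_le_pow_left₀ (norm_nonneg _) h5 2
    _ = 64 * d * ‖D‖ ^ 2 := by
      rw [mul_pow, mul_pow, Real.sq_sqrt hd]; norm_num

/-- the numerical inequality of the union bound -/
theorem OpNorm.numeric {n d : ℕ} (hn : 4 * n ≤ d) :
    (5 : ℝ) ^ d * (√2 ^ n * Real.exp (-4 * d)) ≤ Real.exp (-2 * d) := by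
  have h2 : (√2 : ℝ) ≤ 1.5 := by
    rw [Real.sqrt_le_left (by norm_num)]
    norm_num
  have h5 : √2 ^ n ≤ (1.5 : ℝ) ^ n := pow_le_pow_left₀ (Real.sqrt_nonneg _) h2 n
  have h6 : (1.5 : ℝ) ^ n ≤ (1.2 : ℝ) ^ d := by
    calc (1.5 : ℝ) ^ n ≤ (1.2 ^ 4) ^ n := pow_le_pow_left₀ (by norm_num) (by norm_num) n
      _ = 1.2 ^ (4 * n) := by rw [pow_mul]
      _ ≤ 1.2 ^ d := pow_le_pow_right₀ (by norm_num) hn
  have h7 : (6 : ℝ) ≤ Real.exp 2 := by
    have := Real.exp_one_gt_d9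
    have h8 : Real.exp 2 = Real.exp 1 * Real.exp 1 := by rw [← Real.exp_add]; norm_num
    rw [h8]
    nlinarith
  have h9 : (6 : ℝ) ^ d ≤ Real.exp (2 * d) := by
    calc (6 : ℝ) ^ d ≤ (Real.exp 2) ^ d := pow_le_pow_left₀ (by norm_num) h7 d
      _ = Real.exp (2 * d) := by rw [← Real.exp_nat_mul]; congr 1; ring
  calc (5 : ℝ) ^ d * (√2 ^ n * Real.exp (-4 * d))
      ≤ 5 ^ d * (1.2 ^ d * Real.exp (-4 * d)) := by
        gcongr
        exact h5.trans h6
    _ = 6 ^ d * Real.exp (-4 * d) := by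
        rw [← mul_assoc, ← mul_pow]; norm_num
    _ ≤ Real.exp (2 * d) * Real.exp (-4 * d) := by gcongr
    _ = Real.exp (-2 * d) := by rw [← Real.exp_add]; congr 1; ring

theorem bad_prob {n : ℕ} (hn : 4 * n ≤ Module.finrank ℝ V) (hd : 1 ≤ Module.finrank ℝ V) :
    rows V n (goodX n V)ᶜ ≤ ENNReal.ofReal (Real.exp (-2 * Module.finrank ℝ V)) := by
  obtain ⟨s, hcard, hs, hnet⟩ := OpNorm.net (V := V)
  have hsub : (goodX n V)ᶜ ⊆ ⋃ c ∈ s, {X : Fin n → V |
      64 * (Module.finrank ℝ V : ℝ) < ∑ i, ⟪X i, c⟫ ^ 2} := by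
    intro X hX
    by_contra hcon
    apply hX
    simp only [Set.mem_iUnion, Set.mem_ofPred_eq, not_exists, not_lt] at hcon
    intro D
    exact OpNorm.of_net hnet (Nat.cast_nonneg _) (fun c hc => hcon c hc) D
  calc rows V n (goodX n V)ᶜ
      ≤ rows V n (⋃ c ∈ s, {X : Fin n → V |
        64 * (Module.finrank ℝ V : ℝ) < ∑ i, ⟪X i, c⟫ ^ 2}) := measure_mono hsub
    _ ≤ ∑ c ∈ s, rows V n {X : Fin n → V |
        64 * (Module.finrank ℝ V : ℝ) < ∑ i, ⟪X i, c⟫ ^ 2} :=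
        measure_biUnion_finset_le _ _
    _ ≤ ∑ _c ∈ s, ENNReal.ofReal (√2 ^ n * Real.exp (-4 * Module.finrank ℝ V)) :=
        Finset.sum_le_sum fun c hc => OpNorm.tail (hs c hc)
    _ = (s.card : ℝ≥0∞) * ENNReal.ofReal (√2 ^ n * Real.exp (-4 * Module.finrank ℝ V)) := by
        rw [Finset.sum_const, nsmul_eq_mul]
    _ ≤ ((5 ^ Module.finrank ℝ V : ℕ) : ℝ≥0∞) *
        ENNReal.ofReal (√2 ^ n * Real.exp (-4 * Module.finrank ℝ V)) := by
        gcongr
    _ = ENNReal.ofReal ((5 : ℝ) ^ Module.finrank ℝ V *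
        (√2 ^ n * Real.exp (-4 * Module.finrank ℝ V))) := by
        rw [← ENNReal.ofReal_natCast, ← ENNReal.ofReal_mul (Nat.cast_nonneg _)]
        push_cast
        rfl
    _ ≤ ENNReal.ofReal (Real.exp (-2 * Module.finrank ℝ V)) :=
        ENNReal.ofReal_le_ofReal (OpNorm.numeric hn)

end P309
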