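import Vale.Agent.P309.Defs

/-! # P309: elementary geometry of the probe (distances, signals, translates) -/

namespace P309

open MeasureTheory ProbabilityTheory
open scoped ENNReal RealInnerProductSpace

namespace PB

variable {V : Type*} [NormedAddCommGroup V] [InnerProductSpace ℝ V] [FiniteDimensional ℝ V]

theorem dst_nonneg (W : Submodule ℝ V) (x : V) : 0 ≤ dst W x := norm_nonneg _

theorem dst_add_mem (W : Submodule ℝ V) (x : V) {w : V} (hw : w ∈ W) :
    dst W (x + w) = dst W x := by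
  unfold dst
  rw [map_add, Submodule.starProjection_orthogonal_apply_eq_zero hw, add_zero]

theorem dst_sub_mem (W : Submodule ℝ V) (x : V) {w : V} (hw : w ∈ W) :
    dst W (x - w) = dst W x := by
  rw [sub_eq_add_neg]
  exact dst_add_mem W x (W.neg_mem hw)

theorem dst_smul (W : Submodule ℝ V) (c : ℝ) (x : V) : dst W (c • x) = |c| * dst W x := by
  unfold dst
  rw [map_smul, norm_smul, Real.norm_eq_abs]

theorem dst_neg (W : Submodule ℝ V) (x : V) : dst W (-x) = dst W x := by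
  unfold dst
  rw [map_neg, norm_neg]

theorem dst_sub_comm (W : Submodule ℝ V) (x y : V) : dst W (x - y) = dst W (y - x) := by
  rw [← dst_neg, neg_sub]

theorem dst_add_le (W : Submodule ℝ V) (x y : V) : dst W (x + y) ≤ dst W x + dst W y := by
  unfold dst
  rw [map_add]
  exact norm_add_le _ _

theorem dst_sub_le (W : Submodule ℝ V) (x y : V) : dst W (x - y) ≤ dst W x + dst W y := by
  unfold dst
  rw [map_sub]
  exact norm_sub_le _ _

theorem dst_le_norm (W : Submodule ℝ V) (x : V) : dst W x ≤ ‖x‖ :=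
  Submodule.norm_starProjection_apply_le _ x

theorem dst_anti {W W2 : Submodule ℝ V} (h : W ≤ W2) (x : V) : dst W2 x ≤ dst W x := by
  have h1 : W2ᗮ ≤ Wᗮ := Submodule.orthogonal_le h
  have h2 := Submodule.starProjection_comp_starProjection_of_le h1
  have h3 : W2ᗮ.starProjection x = W2ᗮ.starProjection (Wᗮ.starProjection x) := by
    conv_lhs => rw [← h2]
    rfl
  unfold dst
  rw [h3]
  exact Submodule.norm_starProjection_apply_le _ _

theorem continuous_dst (W : Submodule ℝ V) : Continuous (dst W) := by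
  unfold dst
  exact (ContinuousLinearMap.continuous _).norm

/-- sums of geometric tails -/
theorem sum_tail (L l : ℕ) :
    ∑ i ∈ Finset.range L, (if l ≤ i then (1 / 4 : ℝ) ^ (i + 1) else 0) ≤ (1 / 4 : ℝ) ^ l / 3 := by
  have key : ∀ L : ℕ, ∑ i ∈ Finset.range L, (if l ≤ i then (1 / 4 : ℝ) ^ (i + 1) else 0) +
      (if l ≤ L then (1 / 4 : ℝ) ^ L / 3 else (1 / 4 : ℝ) ^ l / 3) ≤ (1 / 4 : ℝ) ^ l / 3 := by
    intro L
    induction L with
    | zero =>
      simp only [Finset.range_zero, Finset.sum_empty, zero_add]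
      split_ifs with h
      · have : l = 0 := by omega
        subst this
        exact le_refl _
      · exact le_refl _
    | succ L ih =>
      rw [Finset.sum_range_succ]
      by_cases h : l ≤ L
      · have h' : l ≤ L + 1 := by omega
        simp only [h, h', if_true] at ih ⊢
        have e : (1 / 4 : ℝ) ^ (L + 1) = (1 / 4 : ℝ) ^ L / 4 := by ring
        linarith
      · simp only [h, if_false] at ih ⊢
        by_cases h' : l ≤ L + 1
        · have h2 : l = L + 1 := by omega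
          simp only [h', if_true]
          rw [h2] at ih ⊢
          linarith
        · simp only [h', if_false]
          linarith
  have h := key L
  have h0 : 0 ≤ (if l ≤ L then (1 / 4 : ℝ) ^ L / 3 else (1 / 4 : ℝ) ^ l / 3) := by
    split_ifs <;> positivity
  linarith

end PB

/-- translates of two paths that agree below level `l` -/
theorem norm_shift_sub_le {L N d : ℕ} {G : Code L N d} (hG : ∀ i, ‖G i‖ ≤ 2 * √d)
    {z w : Path L N} {l : ℕ} (h : ∀ i : Fin L, i.val < l → z i = w i) :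
    ‖shift G z - shift G w‖ ≤ 4 / 3 * (1 / 4 : ℝ) ^ l := by
  unfold shift
  rw [← Finset.sum_sub_distrib]
  refine (norm_sum_le _ _).trans ?_
  have hterm : ∀ i : Fin L, ‖((1 / 4 : ℝ) ^ (i.val + 1) / √d) • G (i, z i) -
      ((1 / 4 : ℝ) ^ (i.val + 1) / √d) • G (i, w i)‖ ≤
      4 * (if l ≤ i.val then (1 / 4 : ℝ) ^ (i.val + 1) else 0) := by
    intro i
    by_cases hi : l ≤ i.val
    · simp only [hi, if_true]
      rw [← smul_sub, norm_smul, Real.norm_eq_abs,
        abs_of_nonneg (by positivity : 0 ≤ (1 / 4 : ℝ) ^ (i.val + 1) / √d)]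
      have h1 : ‖G (i, z i) - G (i, w i)‖ ≤ 4 * √d := by
        refine (norm_sub_le _ _).trans ?_
        linarith [hG (i, z i), hG (i, w i)]
      have h2 : (1 / 4 : ℝ) ^ (i.val + 1) / √d * ‖G (i, z i) - G (i, w i)‖ ≤
          (1 / 4 : ℝ) ^ (i.val + 1) / √d * (4 * √d) :=
        mul_le_mul_of_nonneg_left h1 (by positivity)
      refine h2.trans ?_
      rcases eq_or_lt_of_le (Real.sqrt_nonneg (d : ℝ)) with h0 | h0
      · rw [← h0]
        simp
      · rw [div_mul_eq_mul_div, div_le_iff₀ h0]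
        linarith
    · have : z i = w i := h i (by omega)
      simp [hi, this]
  refine (Finset.sum_le_sum fun i _ => hterm i).trans ?_
  rw [← Finset.mul_sum, Fin.sum_univ_eq_sum_range
    (fun i => if l ≤ i then (1 / 4 : ℝ) ^ (i + 1) else 0) L]
  have := PB.sum_tail L l
  linarith

theorem norm_shift_le {L N d : ℕ} {G : Code L N d} (hG : ∀ i, ‖G i‖ ≤ 2 * √d) (z : Path L N) :
    ‖shift G z‖ ≤ 2 / 3 := by
  unfold shift
  refine (norm_sum_le _ _).trans ?_
  have hterm : ∀ i : Fin L, ‖((1 / 4 : ℝ) ^ (i.val + 1) / √d) • G (i, z i)‖ ≤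
      2 * (if 0 ≤ i.val then (1 / 4 : ℝ) ^ (i.val + 1) else 0) := by
    intro i
    simp only [Nat.zero_le, if_true]
    rw [norm_smul, Real.norm_eq_abs,
      abs_of_nonneg (by positivity : 0 ≤ (1 / 4 : ℝ) ^ (i.val + 1) / √d)]
    have h2 : (1 / 4 : ℝ) ^ (i.val + 1) / √d * ‖G (i, z i)‖ ≤
        (1 / 4 : ℝ) ^ (i.val + 1) / √d * (2 * √d) :=
      mul_le_mul_of_nonneg_left (hG _) (by positivity)
    refine h2.trans ?_
    rcases eq_or_lt_of_le (Real.sqrt_nonneg (d : ℝ)) with h0 | h0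
    · rw [← h0]
      simp
    · rw [div_mul_eq_mul_div, div_le_iff₀ h0]
      linarith
  refine (Finset.sum_le_sum fun i _ => hterm i).trans ?_
  rw [← Finset.mul_sum, Fin.sum_univ_eq_sum_range
    (fun i => if 0 ≤ i then (1 / 4 : ℝ) ^ (i + 1) else 0) L]
  have := PB.sum_tail L 0
  norm_num at this ⊢
  linarith

theorem ne_zero_of_ann {d : ℕ} {t : Eu d} (ht : t ∈ ann d) : t ≠ 0 := by
  intro h
  have := ht.1
  rw [h, norm_zero] at this
  linarith

theorem norm_sg_sub_le {d : ℕ} {t t' : Eu d} (ht : t ∈ ann d) (ht' : t' ∈ ann d) :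
    ‖sg t - sg t'‖ ≤ 2 * ‖t - t'‖ := by
  have h1 : 0 < ‖t‖ := lt_of_lt_of_le one_pos ht.1
  have h2 : 0 < ‖t'‖ := lt_of_lt_of_le one_pos ht'.1
  have e : sg t - sg t' = ‖t‖⁻¹ • (t - t') + (‖t‖⁻¹ - ‖t'‖⁻¹) • t' := by
    unfold sg
    rw [smul_sub, sub_smul]
    abel
  have h3 : ‖(‖t‖⁻¹ - ‖t'‖⁻¹) • t'‖ ≤ ‖t‖⁻¹ * ‖t - t'‖ := by
    rw [norm_smul, Real.norm_eq_abs]
    have e2 : ‖t‖⁻¹ - ‖t'‖⁻¹ = ‖t‖⁻¹ * ‖t'‖⁻¹ * (‖t'‖ - ‖t‖) := by
      field_simp
    rw [e2, abs_mul, abs_of_pos (by positivity)]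
    have h4 : |‖t'‖ - ‖t‖| ≤ ‖t - t'‖ := by
      rw [norm_sub_rev]
      exact abs_norm_sub_norm_le _ _
    have h5 : ‖t‖⁻¹ * ‖t'‖⁻¹ * |‖t'‖ - ‖t‖| * ‖t'‖ = ‖t‖⁻¹ * |‖t'‖ - ‖t‖| := by
      field_simp
    rw [h5]
    exact mul_le_mul_of_nonneg_left h4 (by positivity)
  have h6 : ‖‖t‖⁻¹ • (t - t')‖ = ‖t‖⁻¹ * ‖t - t'‖ := by
    rw [norm_smul, Real.norm_eq_abs, abs_of_pos (by positivity)]
  have h7 : ‖t‖⁻¹ ≤ 1 := inv_le_one_of_one_le₀ ht.1
  have h8 : ‖t‖⁻¹ * ‖t - t'‖ ≤ 1 * ‖t - t'‖ := mul_le_mul_of_nonneg_right h7 (norm_nonneg _)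
  rw [e]
  refine (norm_add_le _ _).trans ?_
  linarith

theorem norm_Dz_le {L N d : ℕ} {G : Code L N d} (hG : ∀ i, ‖G i‖ ≤ 2 * √d) {z' z : Path L N}
    {l : Fin L} (hz : z ∈ Lev z' l) {t' : Eu d} (ht' : t' ∈ ann d)
    (ht : t' + (shift G z - shift G z') ∈ ann d) : ‖Dz z' l t' G z‖ ≤ 11 := by
  have hz1 := (Finset.mem_filter.mp hz).2.1
  have h1 : ‖shift G z - shift G z'‖ ≤ 4 / 3 * (1 / 4 : ℝ) ^ l.val :=
    norm_shift_sub_le hG (fun i hi => hz1 i (Fin.lt_def.mpr hi))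
  have h2 := norm_sg_sub_le ht ht'
  have e : t' + (shift G z - shift G z') - t' = shift G z - shift G z' := by abel
  rw [e] at h2
  unfold Dz
  rw [norm_smul, norm_inv, norm_pow]
  have h3 : ‖(1 / 4 : ℝ)‖ = 1 / 4 := by norm_num
  rw [h3]
  have hp : 0 < (1 / 4 : ℝ) ^ (l.val + 1) := by positivity
  rw [inv_mul_le_iff₀ hp]
  have e2 : (1 / 4 : ℝ) ^ (l.val + 1) = (1 / 4 : ℝ) ^ l.val / 4 := by ring
  rw [e2]
  have hp' : 0 < (1 / 4 : ℝ) ^ l.val := by positivity
  linarith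

theorem dst_le_two_dst_sg {d : ℕ} {t' Δ : Eu d} (ht' : t' ∈ ann d) (ht : t' + Δ ∈ ann d)
    (W : Submodule ℝ (Eu d)) :
    dst (W ⊔ ℝ ∙ t') Δ ≤ 2 * dst W (sg (t' + Δ) - sg t') := by
  have hmem : t' ∈ W ⊔ ℝ ∙ t' :=
    Submodule.mem_sup_right (Submodule.mem_span_singleton_self t')
  have h1 : dst (W ⊔ ℝ ∙ t') (sg (t' + Δ) - sg t') ≤ dst W (sg (t' + Δ) - sg t') :=
    PB.dst_anti le_sup_left _
  have h2 : dst (W ⊔ ℝ ∙ t') (sg (t' + Δ) - sg t') = ‖t' + Δ‖⁻¹ * dst (W ⊔ ℝ ∙ t') Δ := by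
    have h3 : sg t' ∈ W ⊔ ℝ ∙ t' := Submodule.smul_mem _ _ hmem
    rw [PB.dst_sub_mem _ _ h3]
    unfold sg
    rw [PB.dst_smul, abs_of_nonneg (by positivity : 0 ≤ ‖t' + Δ‖⁻¹), add_comm t' Δ,
      PB.dst_add_mem _ _ hmem]
  rw [h2] at h1
  have h4 : 0 < ‖t' + Δ‖ := lt_of_lt_of_le one_pos ht.1
  have h5 : (2:ℝ)⁻¹ ≤ ‖t' + Δ‖⁻¹ := inv_anti₀ h4 ht.2
  have h6 : (2:ℝ)⁻¹ * dst (W ⊔ ℝ ∙ t') Δ ≤ ‖t' + Δ‖⁻¹ * dst (W ⊔ ℝ ∙ t') Δ :=
    mul_le_mul_of_nonneg_right h5 (PB.dst_nonneg _ _)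
  linarith

/-- number of paths first differing at level `l` -/
theorem card_Lev_le {L N : ℕ} (z' : Path L N) (l : Fin L) :
    (Lev z' l).card ≤ N ^ (L - l.val) := by
  classical
  have h1 : (Lev z' l).card ≤ (Finset.univ : Finset ({i : Fin L // l ≤ i} → Fin N)).card := by
    apply Finset.card_le_card_of_injOn (fun z => fun i : {i : Fin L // l ≤ i} => z i.1)
    · intro z _
      exact Finset.mem_coe.mpr (Finset.mem_univ _)
    · intro z hz w hw hzw
      have hz1 := (Finset.mem_filter.mp (Finset.mem_coe.mp hz)).2.1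
      have hw1 := (Finset.mem_filter.mp (Finset.mem_coe.mp hw)).2.1
      funext i
      by_cases hi : l ≤ i
      · exact congrFun hzw ⟨i, hi⟩
      · rw [hz1 i (not_le.mp hi), hw1 i (not_le.mp hi)]
  refine h1.trans (le_of_eq ?_)
  rw [Finset.card_univ, Fintype.card_fun, Fintype.card_fin]
  congr 1
  rw [Fintype.card_subtype]
  have : (Finset.univ.filter fun i : Fin L => l ≤ i) = Finset.Ici l := by
    ext i
    simp
  rw [this, Fin.card_Ici]

theorem continuous_shift {L N d : ℕ} (z : Path L N) :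
    Continuous fun G : Code L N d => shift G z := by
  unfold shift
  fun_prop

theorem measurable_shift_diff {L N d : ℕ} (z z' : Path L N) :
    Continuous fun G : Code L N d => shift G z - shift G z' :=
  (continuous_shift z).sub (continuous_shift z')

theorem measurable_sg {d : ℕ} : Measurable (sg (d := d)) := by
  unfold sg
  fun_prop

theorem isClosed_ann (d : ℕ) : IsClosed (ann d) := by
  have : ann d = {t : Eu d | 1 ≤ ‖t‖} ∩ {t : Eu d | ‖t‖ ≤ 2} := rfl
  rw [this]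
  exact (isClosed_le continuous_const continuous_norm).inter
    (isClosed_le continuous_norm continuous_const)

theorem measurableSet_ann (d : ℕ) : MeasurableSet (ann d) := (isClosed_ann d).measurableSet

/-- two different paths have a first difference -/
theorem exists_lev {L N : ℕ} {z' z : Path L N} (h : z ≠ z') : ∃ l : Fin L, z ∈ Lev z' l := by
  classical
  have hne : (Finset.univ.filter fun i : Fin L => z i ≠ z' i).Nonempty := by
    by_contra hcon
    rw [Finset.not_nonempty_iff_eq_empty] at hcon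
    apply h
    funext i
    by_contra hi
    have : i ∈ (Finset.univ.filter fun i : Fin L => z i ≠ z' i) := by
      simp [hi]
    rw [hcon] at this
    simp at this
  refine ⟨(Finset.univ.filter fun i : Fin L => z i ≠ z' i).min' hne, ?_⟩
  unfold Lev
  rw [Finset.mem_filter]
  refine ⟨Finset.mem_univ _, ?_, ?_⟩
  · intro i hi
    by_contra hcon
    have := Finset.min'_le (Finset.univ.filter fun i : Fin L => z i ≠ z' i) i (by simp [hcon])
    exact absurd hi (not_lt.mpr this)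
  · have := Finset.min'_mem _ hne
    exact (Finset.mem_filter.mp this).2

end P309
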