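import Mathlib

/-!
# P309 : the setting (signals, learners, success)
-/

namespace P309

open MeasureTheory ProbabilityTheory
open scoped ENNReal RealInnerProductSpace

/-- the signal space `ℝ^d` -/
abbrev Eu (d : ℕ) := EuclideanSpace ℝ (Fin d)

/-- the uniform probability measure on the unit sphere of `ℝ^d` (normalised surface measure) -/
noncomputable def unif (d : ℕ) : Measure (Metric.sphere (0 : Eu d) 1) :=
  ((volume : Measure (Eu d)).toSphere Set.univ)⁻¹ • (volume : Measure (Eu d)).toSphere

/-- A learner for signals in `ℝ^d` with set of persistent states `S`. The point `ω : Ω` carries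
all internal randomness (initial state, transitions, stopping decisions and output may use it);
indices count the samples already read. -/
structure Learner (d : ℕ) (S Ω : Type*) [MeasurableSpace Ω] where
  /-- initial state -/
  init : Ω → S
  /-- transition at index `i` from the current state and the current pair `(x, y)`: the new state
  and the decision whether to stop (`true` means stop) -/
  step : ℕ → Ω → S → Eu d → ℝ → S × Bool
  /-- output after `i` samples as a function of the final state -/
  out : ℕ → Ω → S → Metric.sphere (0 : Eu d) 1
  /-- measurability of the initial state -/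
  measurable_init : ∀ u, MeasurableSet {ω | init ω = u}
  /-- measurability of the transitions -/
  measurable_step : ∀ i u w, MeasurableSet {p : Ω × Eu d × ℝ | step i p.1 u p.2.1 p.2.2 = w}
  /-- measurability of the outputs -/
  measurable_out : ∀ i u, Measurable fun ω => out i ω u

variable {d : ℕ} {S Ω : Type*} [MeasurableSpace Ω]

/-- The final output when `n` more samples with rows `X` and labels `y` may be read, starting at
index `i` in state `u`. Only the state is passed on from one sample to the next. -/
def Learner.play (A : Learner d S Ω) (ω : Ω) :
    (n i : ℕ) → (Fin n → Eu d) → (Fin n → ℝ) → S → Metric.sphere (0 : Eu d) 1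
  | 0, i, _, _, u => A.out i ω u
  | n + 1, i, X, y, u =>
    if (A.step i ω u (X 0) (y 0)).2 then A.out (i + 1) ω (A.step i ω u (X 0) (y 0)).1
    else A.play ω n (i + 1) (Fin.tail X) (Fin.tail y) (A.step i ω u (X 0) (y 0)).1

/-- The output of the learner with horizon `T` on the rows `X` with the exact labels `⟨x_t, s⟩` of
the signal `s`. -/
noncomputable def Learner.estimate (A : Learner d S Ω) (T : ℕ) (ω : Ω) (X : Fin T → Eu d)
    (s : Eu d) : Metric.sphere (0 : Eu d) 1 :=
  A.play ω T 0 X (fun t => ⟪X t, s⟫) (A.init ω)

/-- The learner with randomness of law `P` and horizon `T` succeeds at accuracy `ε`: with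
probability at least `2 / 3` over its randomness, the signal (uniform on the sphere) and the
rows (independent standard Gaussian vectors), the angle between output and signal is at most
`ε`. -/
def Learner.Succeeds (A : Learner d S Ω) (P : Measure Ω) (T : ℕ) (ε : ℝ) : Prop :=
  2 / 3 ≤ (P.prod ((unif d).prod (Measure.pi fun _ : Fin T => stdGaussian (Eu d)))).real
    {p | Real.arccos ⟪(A.estimate T p.1 p.2.2 p.2.1.1 : Eu d), p.2.1.1⟫ ≤ ε}

end P309
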