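import Vale.Agent.P309.Defs

/-!
# P309 : module Sphere (the annulus and the uniform measure on the sphere)
-/

namespace P309

open MeasureTheory ProbabilityTheory
open scoped ENNReal RealInnerProductSpace

theorem Sphere.toSphere_univ_ne_zero {d : ℕ} (hd : 1 ≤ d) :
    (volume : Measure (Eu d)).toSphere Set.univ ≠ 0 := by
  rw [Ne, Measure.measure_univ_eq_zero, Measure.toSphere_eq_zero_iff_finrank,
    finrank_euclideanSpace_fin]
  omega

theorem Sphere.toSphere_univ_ne_top {d : ℕ} :
    (volume : Measure (Eu d)).toSphere Set.univ ≠ ∞ :=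
  measure_ne_top _ _

instance {d : ℕ} [NeZero d] : IsProbabilityMeasure (unif d) := by
  constructor
  rw [unif, Measure.smul_apply, smul_eq_mul]
  exact ENNReal.inv_mul_cancel (Sphere.toSphere_univ_ne_zero (NeZero.one_le))
    Sphere.toSphere_univ_ne_top

open Classical in
/-- polar coordinates on the annulus -/
theorem Sphere.polar {d : ℕ} {φ : Eu d → ℝ≥0∞} (hφ : Measurable φ) (hd : 1 ≤ d) :
    ∫⁻ t in ann d, φ (sg t) = (∫⁻ s, φ s.1 ∂(volume : Measure (Eu d)).toSphere) *
      ∫⁻ r : Set.Ioi (0 : ℝ), (Set.Icc (1 : ℝ) 2).indicator 1 r.1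
        ∂(Measure.volumeIoiPow (Module.finrank ℝ (Eu d) - 1)) := by
  have : NeZero d := ⟨by omega⟩
  have hann : MeasurableSet (ann d) := by
    have h : ann d = {t : Eu d | 1 ≤ ‖t‖} ∩ {t : Eu d | ‖t‖ ≤ 2} := rfl
    rw [h]
    exact (measurableSet_le measurable_const measurable_norm).inter
      (measurableSet_le measurable_norm measurable_const)
  rw [← lintegral_indicator hann]
  have h1 : ∫⁻ t : Eu d, (ann d).indicator (fun t => φ (sg t)) t =
      ∫⁻ t in ({0}ᶜ : Set (Eu d)), (ann d).indicator (fun t => φ (sg t)) t := by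
    rw [restrict_compl_singleton]
  rw [h1, ← lintegral_subtype_comap (measurableSet_singleton (0 : Eu d)).compl]
  let F : (Metric.sphere (0 : Eu d) 1) × Set.Ioi (0 : ℝ) → ℝ≥0∞ := fun p =>
    φ p.1.1 * (Set.Icc (1 : ℝ) 2).indicator 1 p.2.1
  have hi : Measurable fun r : Set.Ioi (0 : ℝ) =>
      (Set.Icc (1 : ℝ) 2).indicator (1 : ℝ → ℝ≥0∞) r.1 :=
    (measurable_one.indicator measurableSet_Icc).comp measurable_subtype_coe
  have hs : Measurable fun s : Metric.sphere (0 : Eu d) 1 => φ s.1 :=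
    hφ.comp measurable_subtype_coe
  have hF : Measurable F := (hs.comp measurable_fst).mul (hi.comp measurable_snd)
  have h2 : ∀ t : ({0}ᶜ : Set (Eu d)), (ann d).indicator (fun t => φ (sg t)) t.1 =
      F (homeomorphUnitSphereProd (Eu d) t) := by
    intro t
    simp only [F, homeomorphUnitSphereProd_apply_fst_coe, homeomorphUnitSphereProd_apply_snd_coe]
    by_cases h : t.1 ∈ ann d
    · rw [Set.indicator_of_mem h, Set.indicator_of_mem (show ‖t.1‖ ∈ Set.Icc (1 : ℝ) 2 from h)]
      simp [sg]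
    · rw [Set.indicator_of_notMem h,
        Set.indicator_of_notMem (show ‖t.1‖ ∉ Set.Icc (1 : ℝ) 2 from h), mul_zero]
  rw [lintegral_congr h2,
    (Measure.measurePreserving_homeomorphUnitSphereProd (volume : Measure (Eu d))).lintegral_comp
      hF, lintegral_prod_mul hs.aemeasurable hi.aemeasurable]

theorem ann_sphere {d : ℕ} (hd : 1 ≤ d) {φ : Eu d → ℝ≥0∞} (hφ : Measurable φ) :
    ∫⁻ t in ann d, φ (sg t) = volume (ann d) * ∫⁻ s, φ s.1 ∂(unif d) := by
  have h1 := Sphere.polar hφ hd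
  have h2 := Sphere.polar (φ := fun _ => 1) (d := d) measurable_const hd
  rw [lintegral_one, lintegral_one, Measure.restrict_apply_univ] at h2
  rw [h1, h2, unif, lintegral_smul_measure, smul_eq_mul]
  set T := (volume : Measure (Eu d)).toSphere Set.univ with hT
  set M := ∫⁻ r : Set.Ioi (0 : ℝ), (Set.Icc (1 : ℝ) 2).indicator 1 r.1
        ∂(Measure.volumeIoiPow (Module.finrank ℝ (Eu d) - 1)) with hM
  set I := ∫⁻ s, φ s.1 ∂(volume : Measure (Eu d)).toSphere with hI
  have h3 : T * T⁻¹ = 1 :=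
    ENNReal.mul_inv_cancel (Sphere.toSphere_univ_ne_zero hd) Sphere.toSphere_univ_ne_top
  calc I * M = (T * T⁻¹) * (I * M) := by rw [h3, one_mul]
    _ = T * M * (T⁻¹ * I) := by ring

end P309
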